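import Crest.Agent.KK2.Inst

/-! The doubling step, the bootstrap and the spread bound. -/

set_option autoImplicit false
set_option linter.unnecessarySeqFocus false
set_option linter.unusedSectionVars false
set_option linter.unusedVariables false

namespace Crest.Agent.KK2
open Finset Crest.Agent.Tal Pointwise

variable {G X : Type} [Group G] [Fintype G] [MulAction G X] [Fintype X] [DecidableEq X] {q : ℝ}

lemma pt_psi {r : ℝ} (h0 : 0 ≤ r) (h1 : r ≤ 1) :
    14 / 5 * (r * √r) - 21 / 5 * r ^ 2 ≤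
      3 / 2 * (7 / 5 * √r * (2 * r - 2 * r ^ 2)) - 1 / 2 * (7 / 5 * √r) ^ 3 := by
  obtain ⟨u, hu0, rfl⟩ : ∃ u : ℝ, 0 ≤ u ∧ r = u ^ 2 :=
    ⟨√r, Real.sqrt_nonneg _, (Real.sq_sqrt h0).symm⟩
  rw [Real.sqrt_sq hu0]
  have hu1 : u ≤ 1 := by nlinarith
  have h3 : 0 ≤ u ^ 3 := by positivity
  have h4 : 0 ≤ u ^ 4 * (1 - u) := mul_nonneg (by positivity) (by linarith)
  nlinarith

lemma pt_sig {r : ℝ} (h0 : 0 ≤ r) (h1 : r ≤ 1) :
    -Real.log (2 * r) * (2 * r - 2 * r ^ 2) + 2 * r - (2 * r - 2 * r ^ 2) ≤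
      2 * (r * -Real.log r) - 4 / 3 * r + 4 * r ^ 2 := by
  rcases h0.eq_or_lt with h | h
  · rw [← h]; simp
  · rw [Real.log_mul (by norm_num) h.ne']
    have h2 := Real.log_two_gt_d9
    have h3 := Real.log_two_lt_d9
    have h4 : 0 ≤ r ^ 2 * -Real.log r :=
      mul_nonneg (by positivity) (neg_nonneg.mpr (Real.log_nonpos h0 h1))
    have h5 : 0 ≤ r ^ 2 := by positivity
    nlinarith

lemma pt_h {r : ℝ} (h0 : 0 ≤ r) :
    -Real.log (r ^ 2) * r ^ 2 + r ^ 2 ≤ 4 * (r * √r) := by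
  obtain ⟨u, hu0, rfl⟩ : ∃ u : ℝ, 0 ≤ u ∧ r = u ^ 2 :=
    ⟨√r, Real.sqrt_nonneg _, (Real.sq_sqrt h0).symm⟩
  rw [Real.sqrt_sq hu0]
  rcases hu0.eq_or_lt with h | h
  · rw [← h]; simp
  · have h1 := Real.log_le_sub_one_of_pos (inv_pos.mpr h)
    rw [Real.log_inv] at h1
    have h2 := mul_le_mul_of_nonneg_left h1 (by positivity : 0 ≤ u ^ 4)
    have h3 : u ^ 4 * (u⁻¹ - 1) = u ^ 3 - u ^ 4 := by field_simp
    rw [h3] at h2
    rw [Real.log_pow, Real.log_pow]
    have h5 : 0 ≤ u ^ 4 := by positivity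
    push_cast
    nlinarith

lemma good_step {L0 L ζ : ℝ} (h0 : Good G X q 0 L0) (hL : Good G X q ζ L) (hζ : 0 ≤ ζ)
    (hζ1 : ζ ≤ 1) (hLL : L0 - 1 ≤ L) (h40 : 40 ≤ L0) : Good G X q ζ (L - ζ / 2) := by
  intro Ω T T' _ p σ Y Z B R A h
  have hp := h.ps
  set p2 := rp p Y with hp2
  have hp' : PS p2 := hp.rp _
  have ma : MP p2 p Rep.a := hp.mp_a _
  have mb : MP p2 p Rep.b := hp.mp_b _
  have eqY : ∀ x : Rep Y, Y x.a = Y x.b := fun x => x.eq
  have eqZ : ∀ x : Rep Y, Z x.a = Z x.b := fun x => h.YZ _ _ x.eq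
  have eqR : ∀ x : Rep Y, R x.a = R x.b := fun x => h.ZR _ _ (eqZ x)
  have eqA : ∀ x : Rep Y, A x.a = A x.b := fun x => h.YA _ _ x.eq
  set O : Rep Y → Finset X := fun x => B x.a ∩ B x.b with hO
  set D : Rep Y → Finset X := fun x => (B x.a ∪ B x.b) \ O x with hD
  have eO : ∀ g x, O (Rep.perm (σ g) (h.hY g) x) = g • O x := by
    intro g x
    simp only [hO, Rep.perm_a, Rep.perm_b, h.eB, Finset.smul_finset_inter]
  have J1 : Inst q p2 (fun g => Rep.perm (σ g) (h.hY g)) (fun x => Y x.a) (fun x => Z x.a)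
      (fun x => B x.a) (fun x => R x.a) (fun x => A x.a) :=
    ⟨hp', fun g => rp_perm _ _ (h.inv g), fun g a b => h.hY g _ _, fun g a b => h.hZ g _ _,
      fun a b => h.YZ _ _, fun a b => h.ZR _ _, fun a b => h.YA _ _, fun g x => h.eB g _,
      fun g x => h.eR g _, fun x => h.BA _, fun x => h.RA _, fun x => h.disj _, fun x => h.sp _⟩
  have J2 : Inst q p2 (fun g => Rep.perm (σ g) (h.hY g)) (fun x => Y x.b) (fun x => Z x.b)
      (fun x => B x.b) (fun x => R x.b) (fun x => A x.b) :=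
    ⟨hp', fun g => rp_perm _ _ (h.inv g), fun g a b => h.hY g _ _, fun g a b => h.hZ g _ _,
      fun a b => h.YZ _ _, fun a b => h.ZR _ _, fun a b => h.YA _ _, fun g x => h.eB g _,
      fun g x => h.eR g _, fun x => h.BA _, fun x => h.RA _, fun x => h.disj _, fun x => h.sp _⟩
  have hU : ∀ x : Rep Y, B x.a ∪ B x.b ⊆ A x.a := fun x =>
    Finset.union_subset (h.BA _) (eqA x ▸ h.BA _)
  have hUR : ∀ x : Rep Y, Disjoint (B x.a ∪ B x.b) (R x.a) := fun x =>
    Finset.disjoint_union_left.mpr ⟨h.disj _, eqR x ▸ h.disj _⟩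
  have JD : Inst q p2 (fun g => Rep.perm (σ g) (h.hY g)) (pair (fun x => Y x.a) O)
      (pair (fun x => Z x.a) O) D (fun x => R x.a ∪ O x) (fun x => A x.a) := by
    refine ⟨hp', fun g => rp_perm _ _ (h.inv g), fun g a b => ?_, fun g a b => ?_,
      fun a b e => ?_, fun a b e => ?_, fun a b e => h.YA _ _ (Prod.ext_iff.mp e).1,
      fun g x => ?_, fun g x => ?_, fun x => Finset.sdiff_subset.trans (hU x),
      fun x => Finset.union_subset (h.RA _) (Finset.inter_subset_left.trans (h.BA _)),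
      fun x => ?_, fun x => h.sp _⟩
    · simp only [Prod.ext_iff, Rep.perm_a, eO, smul_left_cancel_iff, h.hY]
    · simp only [Prod.ext_iff, Rep.perm_a, eO, smul_left_cancel_iff, h.hZ]
    · exact Prod.ext (h.YZ _ _ (Prod.ext_iff.mp e).1) (Prod.ext_iff.mp e).2
    · have e1 := h.ZR _ _ (Prod.ext_iff.mp e).1
      have e2 : O a = O b := (Prod.ext_iff.mp e).2
      simp only [e1, e2]
    · simp only [hD, Rep.perm_a, Rep.perm_b, eO, h.eB, Finset.smul_finset_sdiff,
        Finset.smul_finset_union]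
    · simp only [Rep.perm_a, eO, h.eR, Finset.smul_finset_union]
    · exact Finset.disjoint_union_right.mpr
        ⟨(hUR x).mono_left Finset.sdiff_subset, Finset.sdiff_disjoint⟩
  have g1 := pin_gain h0 hL hζ J1 O (fun x => Finset.inter_subset_left) eO
  have g2 := pin_gain h0 hL hζ J2 O (fun x => Finset.inter_subset_right) eO
  have g3 := hL _ _ _ _ _ _ _ _ _ _ JD
  have x1 : Exc q p2 (fun x => Y x.a) (fun x => Z x.a) (fun x => B x.a) (fun x => R x.a) =
      Exc q p Y Z B R := by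
    unfold Exc; rw [ma.Ec, ma.Ec, ma.ent Y, ma.ent (pair B Z), ma.ent (pair B Y)]
  have x2 : Exc q p2 (fun x => Y x.b) (fun x => Z x.b) (fun x => B x.b) (fun x => R x.b) =
      Exc q p Y Z B R := by
    unfold Exc; rw [mb.Ec, mb.Ec, mb.ent Y, mb.ent (pair B Z), mb.ent (pair B Y)]
  have y1 : ent p2 (pair (fun x => B x.a) (fun x => Z x.a)) = ent p (pair B Z) :=
    ma.ent (pair B Z)
  have y2 : ent p2 (pair (fun x => B x.b) (fun x => Z x.b)) = ent p (pair B Z) :=
    mb.ent (pair B Z)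
  rw [x1, y1, ma.Ec, ma.Ec, ma.Sig] at g1
  rw [x2, y2, mb.Ec, mb.Ec, mb.Sig, ← funext eqZ] at g2
  -- entropy inequalities
  have n1 := hp'.condReduce (fun x => B x.a) (Y := pair O (fun x => Z x.a))
    (Y' := pair O (pair (fun x => B x.b) (fun x => Z x.a)))
    (fun a b e => by simp only [Prod.ext_iff] at e ⊢; tauto)
  have n2 := hp'.condReduce (pair (fun x => B x.a) (fun x => B x.b))
    (Y := pair D (pair (fun x => Z x.a) O)) (Y' := pair D (pair (fun x => Y x.a) O))
    (fun a b e => by simp only [Prod.ext_iff] at e ⊢; have := h.YZ a.a b.a; tauto)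
  have kOD : ∀ a b : Rep Y, B a.a = B b.a → B a.b = B b.b → O a = O b ∧ D a = D b := by
    intro a b e1 e2; simp only [hO, hD, e1, e2, and_self]
  have n3 : ent p2 (pair (pair (fun x => B x.a) (fun x => B x.b))
      (pair D (pair (fun x => Y x.a) O))) = ent p (pair B Y) + ent p (pair B Y) - ent p Y := by
    rw [← hp.ent_rp Y B B]
    refine ent_congr (fun a b e => ?_) (fun a b e => ?_) <;>
    · simp only [Prod.ext_iff] at e ⊢
      have := kOD a b; tauto
  have n4 : ent p2 (pair (pair (fun x => B x.a) (fun x => B x.b))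
      (pair D (pair (fun x => Z x.a) O))) =
      ent p2 (pair (fun x => B x.a) (pair O (pair (fun x => B x.b) (fun x => Z x.a)))) := by
    refine ent_congr (fun a b e => ?_) (fun a b e => ?_) <;>
    · simp only [Prod.ext_iff] at e ⊢
      have := kOD a b; tauto
  have n5 : ent p2 (pair (fun x => B x.a) (pair O (fun x => Z x.a))) =
      ent p2 (pair O (pair (fun x => B x.a) (fun x => Z x.a))) := by
    refine ent_congr (fun a b e => ?_) (fun a b e => ?_) <;>
    · simp only [Prod.ext_iff] at e ⊢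
      tauto
  have n6 : ent p2 (pair (fun x => Y x.a) O) = ent p2 (pair O (fun x => Y x.a)) := by
    refine ent_congr (fun a b e => ?_) (fun a b e => ?_) <;>
    · simp only [Prod.ext_iff] at e ⊢
      tauto
  -- moments
  have mO : ∀ (x : X) (φ : ℝ → ℝ), Ex p2 (fun y => φ (rr p Y B x y.a) * ind (x ∈ O y)) =
      Ex p (fun a => φ (rr p Y B x a) * rr p Y B x a ^ 2) := by
    intro x φ
    have := hp.Ex_rp_mul3 (Y := Y) (g := fun a => φ (rr p Y B x a))
      (fun a b e => by simp only [rr_ref Y B x a b e]) (fun a => ind (x ∈ B a))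
      (fun a => ind (x ∈ B a))
    refine (Ex_congr fun y => ?_).trans (this.trans (Ex_congr fun a => ?_))
    · rw [mul_assoc, ← ind_and, hO]; simp only [Finset.mem_inter]
    · rw [pow_two, mul_assoc]; rfl
  have mB : ∀ (x : X) (φ : ℝ → ℝ), Ex p (fun a => φ (rr p Y B x a) * ind (x ∈ B a)) =
      Ex p (fun a => φ (rr p Y B x a) * rr p Y B x a) := by
    intro x φ
    exact (hp.tower (Y := Y) (g := fun a => φ (rr p Y B x a))
      (fun a b e => by simp only [rr_ref Y B x a b e]) _).symm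
  have mD : ∀ (x : X) (φ : ℝ → ℝ), Ex p2 (fun y => φ (rr p Y B x y.a) * ind (x ∈ D y)) =
      Ex p (fun a => φ (rr p Y B x a) * (2 * rr p Y B x a - 2 * rr p Y B x a ^ 2)) := by
    intro x φ
    have h1 : ∀ y : Rep Y, φ (rr p Y B x y.a) * ind (x ∈ D y) =
        φ (rr p Y B x y.a) * ind (x ∈ B y.a) + φ (rr p Y B x y.b) * ind (x ∈ B y.b) -
          2 * (φ (rr p Y B x y.a) * ind (x ∈ O y)) := by
      intro y
      rw [← rr_ref Y B x _ _ (eqY y)]
      by_cases a1 : x ∈ B y.a <;> by_cases a2 : x ∈ B y.b <;>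
        simp [hD, hO, ind_eq_ite, a1, a2] <;> ring
    rw [Ex_congr h1, Ex_sub, Ex_add, Ex_mul_left, mO,
      ma (fun a => φ (rr p Y B x a) * ind (x ∈ B a)),
      mb (fun a => φ (rr p Y B x a) * ind (x ∈ B a)), mB, ← Ex_mul_left, ← Ex_add, ← Ex_sub]
    exact Ex_congr fun a => by ring
  have c0 : Ec p B = ∑ x, Ex p (rr p Y B x) := by
    rw [Ec_eq]; exact Finset.sum_congr rfl fun x _ => (hp.Ex_rr Y B x).symm
  have c1 : Ec p2 O = ∑ x, Ex p (fun a => rr p Y B x a ^ 2) := by
    rw [Ec_eq]; refine Finset.sum_congr rfl fun x _ => ?_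
    simpa only [one_mul] using mO x (fun _ => 1)
  have c2 : Ec p2 D = 2 * Ec p B - 2 * Ec p2 O := by
    rw [c0, c1, Ec_eq, Finset.mul_sum, Finset.mul_sum, ← Finset.sum_sub_distrib]
    refine Finset.sum_congr rfl fun x _ => ?_
    have := mD x (fun _ => 1)
    simp only [one_mul] at this
    rw [this, Ex_sub, Ex_mul_left, Ex_mul_left]
  have c3 : Ec p2 (fun x => R x.a ∪ O x) = Ec p R + Ec p2 O := by
    rw [← ma.Ec R]; unfold Ec; rw [← Ex_add]
    refine Ex_congr fun x => ?_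
    rw [Finset.card_union_of_disjoint ((h.disj x.a).mono_left Finset.inter_subset_left).symm,
      Nat.cast_add]
  have s1 : 14 / 5 * Psi p Y B - 21 / 5 * Ec p2 O ≤ Psi p2 (pair (fun x => Y x.a) O) D := by
    rw [c1, Psi, Psi, Finset.mul_sum, Finset.mul_sum, ← Finset.sum_sub_distrib]
    refine Finset.sum_le_sum fun x _ => ?_
    refine le_trans ?_ (hp'.tangent (f := fun y => ind (x ∈ D y))
      (s := fun y => 7 / 5 * √(rr p Y B x y.a)) (fun _ => ind_nonneg _)
      (fun a b e => by simp only [rr_ref Y B x _ _ (Prod.ext_iff.mp e).1])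
      (fun _ => by positivity))
    rw [Ex_sub, Ex_mul_left, mD x (fun r => 7 / 5 * √r),
      ma (fun a => 1 / 2 * (7 / 5 * √(rr p Y B x a)) ^ 3), ← Ex_mul_left, ← Ex_mul_left,
      ← Ex_mul_left, ← Ex_sub, ← Ex_sub]
    exact hp.Ex_mono fun a => pt_psi (hp.rr_nonneg _ _ _ _) (hp.rr_le_one _ _ _ _)
  have s2 : Sig p2 (pair (fun x => Y x.a) O) D ≤
      2 * Sig p Y B - 4 / 3 * Ec p B + 4 * Ec p2 O := by
    rw [c0, c1, Sig, Sig, Finset.mul_sum, Finset.mul_sum, Finset.mul_sum,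
      ← Finset.sum_sub_distrib, ← Finset.sum_add_distrib]
    refine Finset.sum_le_sum fun x _ => ?_
    refine (hp'.cross (f := fun y => ind (x ∈ D y)) (c := fun y => 2 * rr p Y B x y.a)
      (fun _ => ind_nonneg _)
      (fun a b e => by simp only [rr_ref Y B x _ _ (Prod.ext_iff.mp e).1])
      (fun _ => mul_nonneg (by norm_num) (hp.rr_nonneg _ _ _ _)) (fun y hy => by
        have hx : x ∈ D y := by
          by_contra hc; rw [ind_neg hc] at hy; exact lt_irrefl _ hy
        rcases Finset.mem_union.mp (Finset.mem_sdiff.mp hx).1 with h1 | h1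
        · exact mul_pos (by norm_num) (hp.rr_pos _ _ h1)
        · rw [rr_ref Y B x _ _ (eqY y)]
          exact mul_pos (by norm_num) (hp.rr_pos _ _ h1))).trans ?_
    have a1 := mD x (fun _ => 1)
    simp only [one_mul] at a1
    rw [Ex_sub, Ex_add, a1, ma (fun a => 2 * rr p Y B x a),
      Ex_congr (g := fun y : Rep Y => -Real.log (2 * rr p Y B x y.a) * ind (x ∈ D y))
        (fun _ => mul_comm _ _), mD x (fun r => -Real.log (2 * r)), ← Ex_add, ← Ex_sub,
      ← Ex_mul_left, ← Ex_mul_left, ← Ex_mul_left, ← Ex_sub, ← Ex_add]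
    exact hp.Ex_mono fun a => pt_sig (hp.rr_nonneg _ _ _ _) (hp.rr_le_one _ _ _ _)
  have s3 : ent p2 (pair O (fun x => Y x.a)) - ent p Y ≤ 4 * Psi p Y B := by
    rw [← ma.ent Y]
    refine (hp'.setGibbs O (fun x => Y x.a) (fun y x => rr p Y B x y.a ^ 2)
      (fun a b e => by funext x; simp only [rr_ref Y B x _ _ e]) (fun _ _ => sq_nonneg _)
      (fun y x hx => pow_pos (hp.rr_pos _ _ (Finset.mem_inter.mp hx).1) _)).trans ?_
    rw [Ex_sum, Psi, Finset.mul_sum]
    refine Finset.sum_le_sum fun x _ => ?_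
    rw [Ex_add, Ex_congr (g := fun y : Rep Y => -Real.log (rr p Y B x y.a ^ 2) * ind (x ∈ O y))
        (fun _ => mul_comm _ _), mO x (fun r => -Real.log (r ^ 2)),
      ma (fun a => rr p Y B x a ^ 2), ← Ex_add, ← Ex_mul_left]
    exact hp.Ex_mono fun a => pt_h (hp.rr_nonneg _ _ _ _)
  have s4 := mul_le_mul_of_nonneg_left s2 hζ
  have p1 := hp'.Ec_nonneg O
  have p2' := hp.Ec_nonneg B
  have p3 := hp.Psi_nonneg Y B
  have p4 := mul_nonneg p1 (sub_nonneg.mpr hLL)
  have p5 := mul_nonneg p1 (sub_nonneg.mpr h40)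
  have p6 := mul_nonneg p1 (sub_nonneg.mpr hζ1)
  have p7 := mul_nonneg p2' hζ
  unfold Exc at g1 g2 g3 ⊢
  rw [c2, c3, n6] at g3
  rw [n3, n4] at n2
  rw [n5] at n1
  nlinarith

lemma Good.mono {ζ L L' : ℝ} (h : Good G X q ζ L) (hL : L ≤ L') : Good G X q ζ L' := by
  intro Ω T T' _ p σ Y Z B R A hI
  exact (h _ _ _ p σ Y Z B R A hI).trans
    (mul_le_mul_of_nonneg_right hL (hI.ps.Ec_nonneg B))

lemma good_drop {L0 : ℝ} (h0 : Good G X q 0 L0) (h40 : 40 ≤ L0) : Good G X q 0 (L0 - 1) := by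
  have h1 : ∀ ζ : ℝ, 0 < ζ → ζ ≤ 1 → Good G X q ζ (L0 - 1) := by
    intro ζ hζ hζ1
    have h2 : ∀ k : ℕ, Good G X q ζ (max (L0 - 1) (L0 - k * (ζ / 2))) := by
      intro k
      induction k with
      | zero =>
        intro Ω T T' _ p σ Y Z B R A hI
        have a1 := h0.mono (L' := max (L0 - 1) (L0 - (0 : ℕ) * (ζ / 2))) (by simp) _ _ _
          p σ Y Z B R A hI
        have a2 := mul_nonneg hζ.le (hI.ps.Sig_nonneg Y B)
        linarith
      | succ k ih =>
        refine (good_step h0 ih hζ.le hζ1 (le_max_left _ _) h40).mono ?_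
        rcases le_total (L0 - 1) (L0 - k * (ζ / 2)) with a | a
        · rw [max_eq_right a]; refine le_trans (le_of_eq ?_) (le_max_right _ _)
          push_cast; ring
        · rw [max_eq_left a]; exact le_trans (by linarith) (le_max_left _ _)
    obtain ⟨k, hk⟩ := exists_nat_ge (2 / ζ)
    have := h2 k
    rw [div_le_iff₀ hζ] at hk
    rwa [max_eq_left (by linarith)] at this
  intro Ω T T' _ p σ Y Z B R A hI
  have hS := hI.ps.Sig_nonneg Y B
  refine le_of_forall_pos_le_add fun ε hε => ?_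
  have h3 := h1 (min 1 (ε / (Sig p Y B + 1))) (lt_min one_pos (by positivity)) (min_le_left _ _)
    _ _ _ p σ Y Z B R A hI
  have h4 : min 1 (ε / (Sig p Y B + 1)) * Sig p Y B ≤ ε := by
    refine (mul_le_mul_of_nonneg_right (min_le_right _ _) hS).trans ?_
    rw [div_mul_eq_mul_div, div_le_iff₀ (by positivity)]
    nlinarith
  linarith

lemma good_forty (hq : 0 < q) : Good G X q 0 40 := by
  have h1 : ∀ k : ℕ, Good G X q 0 (40 + k) → Good G X q 0 40 := by
    intro k
    induction k with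
    | zero => simp
    | succ k ih =>
      intro h
      refine ih ((good_drop h ?_).mono (le_of_eq ?_))
      · have : (0 : ℝ) ≤ ((k + 1 : ℕ) : ℝ) := Nat.cast_nonneg _
        linarith
      · push_cast; ring
  obtain ⟨k, hk⟩ := exists_nat_ge (Real.log (Fintype.card (Finset X)) + 9)
  exact h1 k ((good_base hq).mono (by linarith))

/-- sparse sets are spread -/
theorem spread_of_sparse (hq : 0 < q) (H : Finset X)
    (hH : ∀ I ⊆ H, 1 / 2 ≤ ((orb G I).card : ℝ) * q ^ I.card) (F : Finset X) :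
    ((univ.filter (fun g : G => g • F ⊆ H)).card : ℝ) ≤
      Fintype.card G * (2 * (Real.exp 40 * q) ^ F.card) := by
  classical
  rcases Nat.eq_zero_or_pos (univ.filter (fun g : G => g • F ⊆ H)).card with hM | hM
  · rw [hM]; push_cast; positivity
  set M := (univ.filter (fun g : G => g • F ⊆ H)).card with hMdef
  have hG : (0 : ℝ) < Fintype.card G := by exact_mod_cast Fintype.card_pos
  have hM' : (0 : ℝ) < M := by exact_mod_cast hM
  let Ω := G × {g : G // g • F ⊆ H}
  have hΩ : (Fintype.card Ω : ℝ) = Fintype.card G * M := by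
    rw [Fintype.card_prod, Fintype.card_subtype]; push_cast; rfl
  set p : Ω → ℝ := fun _ => ((Fintype.card G : ℝ) * M)⁻¹ with hpdef
  have hp : PS p := ⟨fun _ => by positivity, by
    rw [Finset.sum_const, Finset.card_univ, nsmul_eq_mul, hΩ]
    exact mul_inv_cancel₀ (by positivity)⟩
  have horb : ∀ (g : G) (I : Finset X), orb G (g • I) = orb G I := by
    intro g I
    ext t
    simp only [orb, Finset.mem_image, Finset.mem_univ, true_and]
    constructor
    · rintro ⟨k, rfl⟩; exact ⟨k * g, by rw [mul_smul]⟩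
    · rintro ⟨k, rfl⟩; exact ⟨k * g⁻¹, by rw [mul_smul, inv_smul_smul]⟩
  have hI : Inst q p (fun k : G => Equiv.prodCongr (Equiv.mulLeft k) (Equiv.refl _))
      (fun ω : Ω => ω.1) (fun _ => ()) (fun ω => (ω.1 * ω.2.1) • F) (fun _ => ∅)
      (fun ω => ω.1 • H) := by
    refine ⟨hp, fun _ _ => rfl, fun g a b => ?_, fun _ _ _ => Iff.rfl, fun _ _ _ => rfl,
      fun _ _ _ => rfl, fun a b e => by simp only [e], fun g ω => ?_, fun g ω => by simp,
      fun ω => ?_, fun ω => Finset.empty_subset _, fun ω => Finset.disjoint_empty_right _,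
      fun ω I hI => ?_⟩
    · change g * a.1 = g * b.1 ↔ _
      exact mul_right_inj g
    · change (g * ω.1 * ω.2.1) • F = _
      rw [mul_assoc, mul_smul]
    · rw [mul_smul]; exact Finset.smul_finset_subset_smul_finset ω.2.2
    · have := hH (ω.1⁻¹ • I) (Finset.smul_finset_subset_iff.mpr (by rwa [inv_inv]))
      rwa [horb, Finset.card_smul_finset] at this
  have h1 := good_forty (G := G) (X := X) hq _ _ _ _ _ _ _ _ _ _ hI
  have h2 := hp.Psi_nonneg (fun ω : Ω => ω.1) (fun ω => (ω.1 * ω.2.1) • F)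
  have h3 : Ec p (fun ω : Ω => (ω.1 * ω.2.1) • F) = F.card := by
    unfold Ec; simp only [Finset.card_smul_finset, hp.Ex_const]
  have h4 : Ec p (fun _ : Ω => (∅ : Finset X)) = 0 := by
    unfold Ec; simp only [Finset.card_empty, Nat.cast_zero, hp.Ex_const]
  have h5 := hp.condReduce (fun ω : Ω => ω.1) (Y := fun ω => (ω.1 * ω.2.1) • F)
    (Y' := fun ω => ω.1 * ω.2.1) (fun a b e => by simp only [e])
  have h6 := hp.ent_le_log_card (fun ω : Ω => ω.1)
  have h7 := hp.ent_le_log_card (fun ω : Ω => ω.1 * ω.2.1)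
  have h8 : ent p (pair (fun ω : Ω => ω.1) (fun ω => ω.1 * ω.2.1)) =
      Real.log (Fintype.card G) + Real.log M := by
    rw [ent_congr (X := fun ω => ω) (fun a b e => by
      obtain ⟨e1, e2⟩ := Prod.ext_iff.mp e
      simp only at e1 e2
      rw [e1] at e2
      exact Prod.ext e1 (Subtype.ext (mul_left_cancel e2))) (fun a b e => congrArg _ e)]
    have : ∀ ω : Ω, pr p (fun ω => ω) ω = ((Fintype.card G : ℝ) * M)⁻¹ := by
      intro ω
      unfold pr Ex
      beta_reduce
      rw [Finset.sum_eq_single ω, ind_pos rfl, mul_one]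
      · intro b _ hb; rw [ind_neg hb, mul_zero]
      · simp
    unfold ent
    simp only [this, hp.Ex_const]
    rw [Real.log_inv, neg_neg, Real.log_mul hG.ne' hM'.ne']
  have h9 : ent p (pair (fun ω : Ω => (ω.1 * ω.2.1) • F) (fun _ => ())) =
      ent p (fun ω : Ω => (ω.1 * ω.2.1) • F) :=
    ent_congr (Ref.fst _ _) (fun a b e => Prod.ext e rfl)
  have h10 : ent p (pair (fun ω : Ω => (ω.1 * ω.2.1) • F) (fun ω => ω.1)) =
      ent p (pair (fun ω => ω.1) (fun ω : Ω => (ω.1 * ω.2.1) • F)) := by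
    refine ent_congr (fun a b e => ?_) (fun a b e => ?_) <;>
    · simp only [Prod.ext_iff] at e ⊢
      tauto
  unfold Exc at h1
  rw [h3, h4, h9, h10] at h1
  have h11 : Real.log M ≤
      Real.log (Fintype.card G * (2 * (Real.exp 40 * q) ^ F.card)) := by
    rw [Real.log_mul hG.ne' (by positivity), Real.log_mul (by norm_num) (by positivity),
      Real.log_pow, Real.log_mul (by positivity) hq.ne', Real.log_exp]
    linarith
  exact (Real.log_le_log_iff hM' (by positivity)).mp h11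

end Crest.Agent.KK2
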