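import Crest.Agent.Tal.Prob

/-! Shannon entropy on finite probability spaces with strictly positive weights. -/

set_option autoImplicit false
set_option linter.unnecessarySeqFocus false
set_option linter.unusedSectionVars false

namespace Crest.Agent.KK2
open Finset Crest.Agent.Tal

variable {Ω : Type*} [Fintype Ω] {T T' T'' : Type*}

/-- strictly positive probability weights -/
structure PS (p : Ω → ℝ) : Prop where
  pos : ∀ ω, 0 < p ω
  sum : ∑ ω, p ω = 1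

/-- expectation -/
noncomputable def Ex (p : Ω → ℝ) (f : Ω → ℝ) : ℝ := ∑ ω, p ω * f ω

/-- mass of the cell of `Y` containing `ω` -/
noncomputable def pr (p : Ω → ℝ) (Y : Ω → T) (ω : Ω) : ℝ := Ex p (fun a => ind (Y a = Y ω))

/-- entropy -/
noncomputable def ent (p : Ω → ℝ) (Y : Ω → T) : ℝ := Ex p (fun ω => -Real.log (pr p Y ω))

/-- conditional expectation -/
noncomputable def ce (p : Ω → ℝ) (Y : Ω → T) (f : Ω → ℝ) (ω : Ω) : ℝ :=
  Ex p (fun a => ind (Y a = Y ω) * f a) / pr p Y ω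

/-- `Y` determines `X` -/
def Ref (Y : Ω → T) (X : Ω → T') : Prop := ∀ a b, Y a = Y b → X a = X b

/-- pair of random variables -/
abbrev pair (X : Ω → T) (Y : Ω → T') : Ω → T × T' := fun ω => (X ω, Y ω)

variable {p : Ω → ℝ}

lemma Ex_add (f g : Ω → ℝ) : Ex p (fun ω => f ω + g ω) = Ex p f + Ex p g := by
  simp only [Ex, mul_add, Finset.sum_add_distrib]

lemma Ex_sub (f g : Ω → ℝ) : Ex p (fun ω => f ω - g ω) = Ex p f - Ex p g := by
  simp only [Ex, mul_sub, Finset.sum_sub_distrib]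

lemma Ex_neg (f : Ω → ℝ) : Ex p (fun ω => - f ω) = - Ex p f := by
  simp only [Ex, mul_neg, Finset.sum_neg_distrib]

lemma Ex_mul_left (c : ℝ) (f : Ω → ℝ) : Ex p (fun ω => c * f ω) = c * Ex p f := by
  simp only [Ex, Finset.mul_sum]; exact Finset.sum_congr rfl fun _ _ => by ring

lemma Ex_mul_right (c : ℝ) (f : Ω → ℝ) : Ex p (fun ω => f ω * c) = Ex p f * c := by
  simp only [Ex, Finset.sum_mul]; exact Finset.sum_congr rfl fun _ _ => by ring

lemma Ex_sum {α : Type*} (s : Finset α) (f : α → Ω → ℝ) :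
    Ex p (fun ω => ∑ i ∈ s, f i ω) = ∑ i ∈ s, Ex p (f i) := by
  simp only [Ex, Finset.mul_sum]; exact Finset.sum_comm

lemma Ex_congr {f g : Ω → ℝ} (h : ∀ ω, f ω = g ω) : Ex p f = Ex p g := by
  rw [funext h]

lemma Ex_swap {Ω' : Type*} [Fintype Ω'] (p' : Ω' → ℝ) (F : Ω → Ω' → ℝ) :
    Ex p (fun a => Ex p' (F a)) = Ex p' (fun b => Ex p (fun a => F a b)) := by
  simp only [Ex, Finset.mul_sum]
  rw [Finset.sum_comm]
  exact Finset.sum_congr rfl fun _ _ => Finset.sum_congr rfl fun _ _ => by ring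

lemma PS.Ex_mono (hp : PS p) {f g : Ω → ℝ} (h : ∀ ω, f ω ≤ g ω) : Ex p f ≤ Ex p g :=
  Finset.sum_le_sum fun ω _ => mul_le_mul_of_nonneg_left (h ω) (hp.pos ω).le

lemma PS.Ex_const (hp : PS p) (c : ℝ) : Ex p (fun _ => c) = c := by
  simp only [Ex]; rw [← Finset.sum_mul, hp.sum, one_mul]

lemma PS.Ex_nonneg (hp : PS p) {f : Ω → ℝ} (h : ∀ ω, 0 ≤ f ω) : 0 ≤ Ex p f :=
  Finset.sum_nonneg fun ω _ => mul_nonneg (hp.pos ω).le (h ω)

lemma PS.le_Ex (hp : PS p) {f : Ω → ℝ} (h : ∀ ω, 0 ≤ f ω) (a : Ω) : p a * f a ≤ Ex p f :=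
  Finset.single_le_sum (f := fun ω => p ω * f ω)
    (fun ω _ => mul_nonneg (hp.pos ω).le (h ω)) (Finset.mem_univ a)

lemma PS.pr_pos (hp : PS p) (Y : Ω → T) (ω : Ω) : 0 < pr p Y ω := by
  have := hp.le_Ex (f := fun a => ind (Y a = Y ω)) (fun _ => ind_nonneg _) ω
  rw [ind_pos rfl, mul_one] at this
  exact (hp.pos ω).trans_le this

lemma PS.pr_le_one (hp : PS p) (Y : Ω → T) (ω : Ω) : pr p Y ω ≤ 1 :=
  (hp.Ex_mono fun _ => ind_le_one _).trans (hp.Ex_const 1).le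

lemma Ref.refl (Y : Ω → T) : Ref Y Y := fun _ _ h => h
lemma Ref.trans {X : Ω → T} {Y : Ω → T'} {Z : Ω → T''} (h1 : Ref X Y) (h2 : Ref Y Z) : Ref X Z :=
  fun a b h => h2 a b (h1 a b h)
lemma Ref.fst (X : Ω → T) (Y : Ω → T') : Ref (pair X Y) X := fun _ _ h => (Prod.ext_iff.mp h).1
lemma Ref.snd (X : Ω → T) (Y : Ω → T') : Ref (pair X Y) Y := fun _ _ h => (Prod.ext_iff.mp h).2
lemma Ref.pair {X : Ω → T} {Y : Ω → T'} {Z : Ω → T''} (h1 : Ref X Y) (h2 : Ref X Z) :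
    Ref X (pair Y Z) := fun a b h => Prod.ext (h1 a b h) (h2 a b h)

lemma pr_ref (Y : Ω → T) : Ref Y (pr p Y) := fun a b h => by simp only [pr, h]

lemma ce_ref (Y : Ω → T) (f : Ω → ℝ) : Ref Y (ce p Y f) := fun a b h => by
  simp only [ce, pr, h]

lemma PS.pr_mono (hp : PS p) {Y : Ω → T} {X : Ω → T'} (h : Ref Y X) (ω : Ω) :
    pr p Y ω ≤ pr p X ω := hp.Ex_mono fun _ => ind_mono (h _ _)

lemma PS.ent_mono (hp : PS p) {Y : Ω → T} {X : Ω → T'} (h : Ref Y X) : ent p X ≤ ent p Y :=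
  hp.Ex_mono fun ω => neg_le_neg (Real.log_le_log (hp.pr_pos Y ω) (hp.pr_mono h ω))

lemma pr_congr {Y : Ω → T} {X : Ω → T'} (h : Ref Y X) (h' : Ref X Y) : pr p Y = pr p X := by
  funext ω; exact Ex_congr fun a => ind_congr ⟨h _ _, h' _ _⟩

lemma ent_congr {Y : Ω → T} {X : Ω → T'} (h : Ref Y X) (h' : Ref X Y) : ent p Y = ent p X := by
  simp only [ent, pr_congr (p := p) h h']

lemma ce_congr {Y : Ω → T} {X : Ω → T'} (h : Ref Y X) (h' : Ref X Y) (f : Ω → ℝ) :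
    ce p Y f = ce p X f := by
  funext ω
  simp only [ce, pr_congr (p := p) h h']
  congr 1
  exact Ex_congr fun a => by rw [ind_congr ⟨h _ _, h' _ _⟩]

lemma ce_congr_cell (Y : Ω → T) {f g : Ω → ℝ} (ω : Ω) (h : ∀ a, Y a = Y ω → f a = g a) :
    ce p Y f ω = ce p Y g ω := by
  simp only [ce]; congr 1
  refine Ex_congr fun a => ?_
  by_cases ha : Y a = Y ω
  · rw [h a ha]
  · rw [ind_neg ha, zero_mul, zero_mul]

lemma PS.ce_const (hp : PS p) (Y : Ω → T) (c : ℝ) (ω : Ω) : ce p Y (fun _ => c) ω = c := by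
  simp only [ce]; rw [Ex_mul_right]
  have := hp.pr_pos Y ω
  unfold pr at this ⊢
  field_simp

lemma PS.ce_mono (hp : PS p) (Y : Ω → T) {f g : Ω → ℝ} (h : ∀ a, f a ≤ g a) (ω : Ω) :
    ce p Y f ω ≤ ce p Y g ω :=
  div_le_div_of_nonneg_right
    (hp.Ex_mono fun a => mul_le_mul_of_nonneg_left (h a) (ind_nonneg _)) (hp.pr_pos Y ω).le

lemma PS.ce_nonneg (hp : PS p) (Y : Ω → T) {f : Ω → ℝ} (h : ∀ a, 0 ≤ f a) (ω : Ω) :
    0 ≤ ce p Y f ω := (hp.ce_const Y 0 ω).ge.trans (hp.ce_mono Y h ω)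

lemma PS.ce_le_one (hp : PS p) (Y : Ω → T) {f : Ω → ℝ} (h : ∀ a, f a ≤ 1) (ω : Ω) :
    ce p Y f ω ≤ 1 := (hp.ce_mono Y h ω).trans (hp.ce_const Y 1 ω).le

lemma PS.ce_pos (hp : PS p) (Y : Ω → T) {f : Ω → ℝ} (h : ∀ a, 0 ≤ f a) {ω : Ω} (hω : 0 < f ω) :
    0 < ce p Y f ω := by
  refine div_pos ?_ (hp.pr_pos Y ω)
  have := hp.le_Ex (f := fun a => ind (Y a = Y ω) * f a)
    (fun a => mul_nonneg (ind_nonneg _) (h a)) ω
  rw [ind_pos rfl, one_mul] at this
  exact (mul_pos (hp.pos ω) hω).trans_le this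

lemma ce_sum {α : Type*} (Y : Ω → T) (s : Finset α) (f : α → Ω → ℝ) (ω : Ω) :
    ce p Y (fun a => ∑ i ∈ s, f i a) ω = ∑ i ∈ s, ce p Y (f i) ω := by
  simp only [ce, Finset.mul_sum, Ex_sum, Finset.sum_div]

/-- tower property -/
lemma PS.tower (hp : PS p) {Y : Ω → T} {g : Ω → ℝ} (hg : Ref Y g) (f : Ω → ℝ) :
    Ex p (fun ω => g ω * ce p Y f ω) = Ex p (fun ω => g ω * f ω) := by
  have h1 : ∀ ω, g ω * ce p Y f ω =
      Ex p (fun a => ind (Y ω = Y a) * (g a * f a / pr p Y a)) := by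
    intro ω
    rw [ce, div_eq_mul_inv, ← Ex_mul_right, ← Ex_mul_left]
    refine Ex_congr fun a => ?_
    by_cases ha : Y a = Y ω
    · rw [ind_pos ha, ind_pos ha.symm, hg _ _ ha, pr_ref (p := p) Y _ _ ha]; ring
    · rw [ind_neg ha, ind_neg (Ne.symm ha)]; ring
  rw [Ex_congr h1, Ex_swap]
  refine Ex_congr fun a => ?_
  rw [Ex_mul_right]
  have := hp.pr_pos Y a
  change pr p Y a * _ = _
  field_simp

lemma PS.cell_le (hp : PS p) (Y : Ω → T) (c : T) :
    Ex p (fun ω => ind (Y ω = c) / pr p Y ω) ≤ 1 := by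
  by_cases h : ∃ b, Y b = c
  · obtain ⟨b, rfl⟩ := h
    have h1 : ∀ ω, ind (Y ω = Y b) / pr p Y ω = ind (Y ω = Y b) * (pr p Y b)⁻¹ := by
      intro ω
      by_cases ha : Y ω = Y b
      · rw [pr_ref (p := p) Y _ _ ha, div_eq_mul_inv]
      · rw [ind_neg ha]; ring
    rw [Ex_congr h1, Ex_mul_right]
    exact (mul_inv_cancel₀ (hp.pr_pos Y b).ne').le
  · push Not at h
    rw [Ex_congr (g := fun _ => 0) fun ω => by rw [ind_neg (h ω), zero_div], hp.Ex_const]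
    norm_num

/-- conditional Gibbs inequality -/
lemma PS.condGibbs [Fintype T] (hp : PS p) (V : Ω → T) (Y : Ω → T') (Q : Ω → T → ℝ)
    (hQ : Ref Y Q) (h0 : ∀ a t, 0 ≤ Q a t) (h1 : ∀ a, ∑ t, Q a t ≤ 1)
    (hpos : ∀ ω, 0 < Q ω (V ω)) :
    ent p (pair V Y) - ent p Y ≤ Ex p (fun ω => -Real.log (Q ω (V ω))) := by
  set f : Ω → ℝ := fun ω => Q ω (V ω) * pr p Y ω / pr p (pair V Y) ω with hf
  have hfpos : ∀ ω, 0 < f ω := fun ω =>
    div_pos (mul_pos (hpos ω) (hp.pr_pos _ _)) (hp.pr_pos _ _)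
  have h2 : Ex p f ≤ 1 := by
    have h3 : ∀ ω, f ω = Ex p (fun a => ∑ t, Q a t *
        (ind (pair V Y ω = (t, Y a)) / pr p (pair V Y) ω)) := by
      intro ω
      rw [hf]; simp only []
      rw [pr, ← Ex_mul_left, div_eq_mul_inv, ← Ex_mul_right]
      refine Ex_congr fun a => ?_
      by_cases ha : Y a = Y ω
      · rw [ind_pos ha, Finset.sum_eq_single (V ω), hQ _ _ ha, ind_pos (by simp [ha])]
        · ring
        · intro t _ ht
          rw [ind_neg (fun e => ht (Prod.ext_iff.mp e).1.symm)]; ring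
        · simp
      · rw [ind_neg ha, Finset.sum_eq_zero]
        · ring
        · intro t _
          rw [ind_neg (fun e => ha (Prod.ext_iff.mp e).2.symm)]; ring
    rw [Ex_congr h3, Ex_swap]
    refine (hp.Ex_mono (g := fun _ => 1) fun a => ?_).trans (hp.Ex_const 1).le
    rw [Ex_sum]
    refine le_trans (Finset.sum_le_sum fun t _ => ?_) (h1 a)
    rw [Ex_mul_left]
    exact mul_le_of_le_one_right (h0 a t) (hp.cell_le _ _)
  have h4 : Ex p (fun ω => Real.log (f ω)) ≤ Ex p (fun ω => f ω - 1) :=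
    hp.Ex_mono fun ω => Real.log_le_sub_one_of_pos (hfpos ω)
  rw [Ex_sub, hp.Ex_const] at h4
  have h5 : ∀ ω, Real.log (f ω) = -Real.log (pr p (pair V Y) ω) - -Real.log (pr p Y ω) -
      -Real.log (Q ω (V ω)) := by
    intro ω
    rw [hf]; simp only []
    rw [Real.log_div (mul_pos (hpos ω) (hp.pr_pos _ _)).ne' (hp.pr_pos _ _).ne',
      Real.log_mul (hpos ω).ne' (hp.pr_pos _ _).ne']
    ring
  rw [Ex_congr h5, Ex_sub, Ex_sub] at h4
  unfold ent
  linarith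

lemma ce_ind_self (V : Ω → T) (Y : Ω → T') (ω : Ω) :
    ce p Y (fun a => ind (V a = V ω)) ω = pr p (pair V Y) ω / pr p Y ω := by
  simp only [ce]; congr 1
  refine Ex_congr fun a => ?_
  rw [← ind_and]; exact ind_congr (by simp [Prod.ext_iff, and_comm])

lemma PS.sum_ce_ind [Fintype T] (hp : PS p) (V : Ω → T) (Y : Ω → T') (P : T → Prop) (ω : Ω) :
    ∑ t, ce p Y (fun a => ind (V a = t)) ω * ind (P t) = ce p Y (fun a => ind (P (V a))) ω := by
  have h1 : ∀ t, ce p Y (fun a => ind (V a = t)) ω * ind (P t) =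
      ce p Y (fun a => ind (V a = t) * ind (P t)) ω := by
    intro t; simp only [ce, ← mul_assoc, Ex_mul_right]; ring
  rw [Finset.sum_congr rfl fun t _ => h1 t, ← ce_sum]
  congr 1; funext a
  rw [Finset.sum_eq_single (V a), ind_pos rfl, one_mul]
  · intro t _ ht; rw [ind_neg (Ne.symm ht), zero_mul]
  · simp

/-- conditioning reduces entropy -/
lemma PS.condReduce [Fintype T] (hp : PS p) (V : Ω → T) {Y : Ω → T'} {Y' : Ω → T''}
    (h : Ref Y' Y) : ent p (pair V Y') - ent p Y' ≤ ent p (pair V Y) - ent p Y := by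
  have h1 := hp.condGibbs V Y' (fun a t => ce p Y (fun b => ind (V b = t)) a)
    (fun a b e => by funext t; exact ce_ref Y _ _ _ (h _ _ e))
    (fun a t => hp.ce_nonneg _ (fun _ => ind_nonneg _) _)
    (fun a => by
      have := hp.sum_ce_ind V Y (fun _ => True) a
      simp only [ind_pos trivial, mul_one] at this
      rw [this, hp.ce_const])
    (fun ω => hp.ce_pos _ (fun _ => ind_nonneg _) (by rw [ind_pos rfl]; norm_num))
  refine h1.trans (le_of_eq ?_)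
  unfold ent
  rw [← Ex_sub]
  refine Ex_congr fun ω => ?_
  rw [ce_ind_self, Real.log_div (hp.pr_pos _ _).ne' (hp.pr_pos _ _).ne']; ring

lemma PS.ent_unit (hp : PS p) : ent p (fun _ => ()) = 0 := by
  unfold ent pr
  simp only [ind_pos trivial, hp.Ex_const, Real.log_one, neg_zero]

lemma PS.ent_le_log_card [Fintype T] (hp : PS p) (V : Ω → T) :
    ent p V ≤ Real.log (Fintype.card T) := by
  have hne : Nonempty Ω := by
    by_contra hc; rw [not_nonempty_iff] at hc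
    have := hp.sum; simp at this
  obtain ⟨ω0⟩ := hne
  haveI : Nonempty T := ⟨V ω0⟩
  have hc : (0 : ℝ) < Fintype.card T := by exact_mod_cast Fintype.card_pos
  have h1 := hp.condGibbs V (fun _ => ()) (fun _ _ => (Fintype.card T : ℝ)⁻¹)
    (fun _ _ _ => rfl) (fun _ _ => by positivity)
    (fun _ => by simp [mul_inv_cancel₀ hc.ne']) (fun _ => by positivity)
  rw [hp.ent_unit, hp.Ex_const, Real.log_inv, neg_neg, sub_zero,
    ent_congr (X := V) (Ref.fst _ _) (fun a b e => by simp [e])] at h1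
  exact h1

section sets
variable {X : Type*} [Fintype X] [DecidableEq X]

/-- Gibbs inequality for random sets -/
lemma PS.setGibbs (hp : PS p) (V : Ω → Finset X) (Y : Ω → T') (w : Ω → X → ℝ) (hw : Ref Y w)
    (h0 : ∀ a x, 0 ≤ w a x) (hpos : ∀ ω, ∀ x ∈ V ω, 0 < w ω x) :
    ent p (pair V Y) - ent p Y ≤
      Ex p (fun ω => ∑ x, (ind (x ∈ V ω) * -Real.log (w ω x) + w ω x)) := by
  have hD : ∀ a, 0 < ∏ x, (1 + w a x) := fun a =>
    Finset.prod_pos fun x _ => by linarith [h0 a x]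
  have h1 := hp.condGibbs V Y (fun a t => (∏ x ∈ t, w a x) / ∏ x, (1 + w a x))
    (fun a b e => by simp only [hw a b e])
    (fun a t => div_nonneg (Finset.prod_nonneg fun x _ => h0 a x) (hD a).le)
    (fun a => by
      rw [← Finset.sum_div, div_le_one (hD a), Finset.prod_one_add, Finset.powerset_univ])
    (fun ω => div_pos (Finset.prod_pos (hpos ω)) (hD ω))
  refine h1.trans (hp.Ex_mono fun ω => ?_)
  rw [Real.log_div (Finset.prod_pos (hpos ω)).ne' (hD ω).ne',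
    Real.log_prod (fun x hx => (hpos ω x hx).ne'),
    Real.log_prod (fun x _ => by linarith [h0 ω x]), Finset.sum_add_distrib]
  have h2 : ∑ x, ind (x ∈ V ω) * -Real.log (w ω x) = -∑ x ∈ V ω, Real.log (w ω x) := by
    simp only [ind_eq_ite, ite_mul, one_mul, zero_mul]
    rw [Finset.sum_ite_mem, Finset.univ_inter, Finset.sum_neg_distrib]
  have h3 : ∑ x, Real.log (1 + w ω x) ≤ ∑ x, w ω x := Finset.sum_le_sum fun x _ => by
    have := Real.log_le_sub_one_of_pos (x := 1 + w ω x) (by linarith [h0 ω x]); linarith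
  linarith

lemma card_eq_sum_ind (s : Finset X) : (s.card : ℝ) = ∑ x, ind (x ∈ s) := by
  rw [sum_ind_eq_card]; simp

end sets

/-- tangent-line bound for `t √t` -/
lemma PS.tangent (hp : PS p) {Y : Ω → T} {f s : Ω → ℝ} (hf : ∀ a, 0 ≤ f a) (hs : Ref Y s)
    (hs0 : ∀ a, 0 ≤ s a) :
    Ex p (fun ω => 3 / 2 * (s ω * f ω) - 1 / 2 * s ω ^ 3) ≤
      Ex p (fun ω => ce p Y f ω * √(ce p Y f ω)) := by
  rw [Ex_sub, Ex_mul_left, ← hp.tower hs f, ← Ex_mul_left, ← Ex_sub]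
  refine hp.Ex_mono fun ω => ?_
  have h0 := hp.ce_nonneg Y hf ω
  obtain ⟨u, hu0, hu⟩ : ∃ u : ℝ, 0 ≤ u ∧ ce p Y f ω = u ^ 2 :=
    ⟨√(ce p Y f ω), Real.sqrt_nonneg _, (Real.sq_sqrt h0).symm⟩
  rw [hu, Real.sqrt_sq hu0]
  have := hs0 ω
  nlinarith [mul_nonneg (sq_nonneg (u - s ω)) (by linarith : 0 ≤ 2 * u + s ω)]

/-- cross-entropy bound -/
lemma PS.cross (hp : PS p) {Y : Ω → T} {f c : Ω → ℝ} (hf : ∀ a, 0 ≤ f a) (hc : Ref Y c)
    (hc0 : ∀ a, 0 ≤ c a) (hfc : ∀ a, 0 < f a → 0 < c a) :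
    Ex p (fun ω => ce p Y f ω * -Real.log (ce p Y f ω)) ≤
      Ex p (fun ω => f ω * -Real.log (c ω) + c ω - f ω) := by
  have h1 : Ex p (fun ω => f ω * -Real.log (c ω) + c ω - f ω) =
      Ex p (fun ω => (-Real.log (c ω) - 1) * ce p Y f ω + c ω) := by
    rw [Ex_add, hp.tower (fun a b e => by simp only [hc a b e]), ← Ex_add]
    exact Ex_congr fun ω => by ring
  rw [h1]
  refine hp.Ex_mono fun ω => ?_
  have h0 := hp.ce_nonneg Y hf ω
  rcases (hc0 ω).eq_or_lt with h | h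
  · have h2 : ce p Y f ω = 0 := by
      rw [ce_congr_cell Y (g := fun _ => 0) ω, hp.ce_const]
      intro a ha
      by_contra hne
      have := hfc a (lt_of_le_of_ne (hf a) (Ne.symm hne))
      rw [hc _ _ ha] at this; linarith
    rw [h2, ← h]; simp
  · rcases h0.eq_or_lt with h2 | h2
    · rw [← h2]; linarith
    · have h3 := Real.log_le_sub_one_of_pos (div_pos h h2)
      rw [Real.log_div h.ne' h2.ne'] at h3
      have h4 := mul_le_mul_of_nonneg_left h3 h0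
      rw [mul_sub, mul_sub, mul_div_cancel₀ _ h2.ne'] at h4
      linarith

section push
variable {Ω' : Type*} [Fintype Ω'] {p' : Ω' → ℝ}

/-- measure-preserving map -/
def MP (p' : Ω' → ℝ) (p : Ω → ℝ) (π : Ω' → Ω) : Prop :=
  ∀ f : Ω → ℝ, Ex p' (fun x => f (π x)) = Ex p f

variable {π : Ω' → Ω}

lemma MP.pr (h : MP p' p π) (Y : Ω → T) (x : Ω') : pr p' (fun x => Y (π x)) x = pr p Y (π x) :=
  h (fun a => ind (Y a = Y (π x)))

lemma MP.ent (h : MP p' p π) (Y : Ω → T) : ent p' (fun x => Y (π x)) = ent p Y := by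
  unfold KK2.ent
  simp only [h.pr]
  exact h (fun ω => -Real.log (KK2.pr p Y ω))

lemma MP.ce (h : MP p' p π) (Y : Ω → T) (f : Ω → ℝ) (x : Ω') :
    ce p' (fun x => Y (π x)) (fun x => f (π x)) x = ce p Y f (π x) := by
  unfold KK2.ce
  rw [h.pr, h (fun a => ind (Y a = Y (π x)) * f a)]

lemma MP.of_perm (σ : Equiv.Perm Ω) (h : ∀ ω, p (σ ω) = p ω) : MP p p σ := by
  intro f
  unfold Ex
  rw [← Equiv.sum_comp σ (fun ω => p ω * f ω)]
  simp only [h]

end push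

end Crest.Agent.KK2
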