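import Crest.Agent.KK2.Rep

/-! Invariant instances, the base bound and the pinning step. -/

set_option autoImplicit false
set_option linter.unnecessarySeqFocus false
set_option linter.unusedSectionVars false
set_option linter.unusedVariables false

namespace Crest.Agent.KK2
open Finset Crest.Agent.Tal Pointwise

variable {G X : Type} [Group G] [Fintype G] [MulAction G X] [Fintype X] [DecidableEq X]

/-- orbit of a set -/
def orb (G : Type) [Group G] [Fintype G] [MulAction G X] (I : Finset X) : Finset (Finset X) :=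
  univ.image (fun g : G => g • I)

/-- invariant instance -/
structure Inst (q : ℝ) {Ω T T' : Type} [Fintype Ω] (p : Ω → ℝ) (σ : G → Equiv.Perm Ω)
    (Y : Ω → T) (Z : Ω → T') (B R A : Ω → Finset X) : Prop where
  ps : PS p
  inv : ∀ g ω, p (σ g ω) = p ω
  hY : ∀ g a b, Y (σ g a) = Y (σ g b) ↔ Y a = Y b
  hZ : ∀ g a b, Z (σ g a) = Z (σ g b) ↔ Z a = Z b
  YZ : Ref Y Z
  ZR : Ref Z R
  YA : Ref Y A
  eB : ∀ g ω, B (σ g ω) = g • B ω
  eR : ∀ g ω, R (σ g ω) = g • R ω
  BA : ∀ ω, B ω ⊆ A ω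
  RA : ∀ ω, R ω ⊆ A ω
  disj : ∀ ω, Disjoint (B ω) (R ω)
  sp : ∀ ω, ∀ I ⊆ A ω, 1 / 2 ≤ ((orb G I).card : ℝ) * q ^ I.card

/-- expected size -/
noncomputable def Ec {Ω : Type*} [Fintype Ω] (p : Ω → ℝ) (B : Ω → Finset X) : ℝ :=
  Ex p (fun ω => ((B ω).card : ℝ))

/-- the excess -/
noncomputable def Exc (q : ℝ) {Ω T T' : Type} [Fintype Ω] (p : Ω → ℝ) (Y : Ω → T) (Z : Ω → T')
    (B R : Ω → Finset X) : ℝ :=
  ent p (pair B Z) - ent p (pair B Y) + ent p Y + Real.log q * (Ec p B + Ec p R)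

/-- the inequality to be bootstrapped -/
def Good (G X : Type) [Group G] [Fintype G] [MulAction G X] [Fintype X] [DecidableEq X]
    (q ζ L : ℝ) : Prop :=
  ∀ (Ω T T' : Type) [Fintype Ω] (p : Ω → ℝ) (σ : G → Equiv.Perm Ω) (Y : Ω → T) (Z : Ω → T')
    (B R A : Ω → Finset X), Inst q p σ Y Z B R A →
    -Exc q p Y Z B R - Real.log 2 + 9 * Psi p Y B - ζ * Sig p Y B ≤ L * Ec p B

section basic
variable {Ω : Type*} [Fintype Ω] {T : Type*} {p : Ω → ℝ}

lemma Ec_eq (B : Ω → Finset X) : Ec p B = ∑ x, Ex p (fun ω => ind (x ∈ B ω)) := by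
  rw [← Ex_sum]; exact Ex_congr fun ω => card_eq_sum_ind _

lemma PS.Ec_nonneg (hp : PS p) (B : Ω → Finset X) : 0 ≤ Ec p B :=
  hp.Ex_nonneg fun _ => Nat.cast_nonneg _

lemma PS.Ex_rr (hp : PS p) (Y : Ω → T) (B : Ω → Finset X) (x : X) :
    Ex p (rr p Y B x) = Ex p (fun ω => ind (x ∈ B ω)) := by
  have := hp.tower (Y := Y) (g := fun _ => 1) (fun _ _ _ => rfl) (fun ω => ind (x ∈ B ω))
  simp only [one_mul] at this
  exact this

lemma PS.Psi_nonneg (hp : PS p) (Y : Ω → T) (B : Ω → Finset X) : 0 ≤ Psi p Y B :=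
  Finset.sum_nonneg fun x _ => hp.Ex_nonneg fun ω =>
    mul_nonneg (hp.rr_nonneg _ _ _ _) (Real.sqrt_nonneg _)

lemma PS.Psi_le (hp : PS p) (Y : Ω → T) (B : Ω → Finset X) : Psi p Y B ≤ Ec p B := by
  rw [Ec_eq]
  refine Finset.sum_le_sum fun x _ => ?_
  rw [← hp.Ex_rr Y]
  exact hp.Ex_mono fun ω => mul_le_of_le_one_right (hp.rr_nonneg _ _ _ _)
    (Real.sqrt_le_one.mpr (hp.rr_le_one _ _ _ _))

lemma PS.neg_log_rr (hp : PS p) (Y : Ω → T) (B : Ω → Finset X) (x : X) (ω : Ω) :
    0 ≤ -Real.log (rr p Y B x ω) :=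
  neg_nonneg.mpr (Real.log_nonpos (hp.rr_nonneg _ _ _ _) (hp.rr_le_one _ _ _ _))

lemma PS.Sig_nonneg (hp : PS p) (Y : Ω → T) (B : Ω → Finset X) : 0 ≤ Sig p Y B :=
  Finset.sum_nonneg fun x _ => hp.Ex_nonneg fun ω =>
    mul_nonneg (hp.rr_nonneg _ _ _ _) (hp.neg_log_rr _ _ _ _)

variable {Ω' : Type*} [Fintype Ω'] {p' : Ω' → ℝ} {π : Ω' → Ω}

lemma MP.Ec (h : MP p' p π) (B : Ω → Finset X) : Ec p' (fun x => B (π x)) = Ec p B :=
  h (fun ω => ((B ω).card : ℝ))

lemma MP.rr (h : MP p' p π) (Y : Ω → T) (B : Ω → Finset X) (x : X) (y : Ω') :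
    rr p' (fun y => Y (π y)) (fun y => B (π y)) x y = rr p Y B x (π y) :=
  h.ce Y (fun a => ind (x ∈ B a)) y

lemma MP.Sig (h : MP p' p π) (Y : Ω → T) (B : Ω → Finset X) :
    Sig p' (fun y => Y (π y)) (fun y => B (π y)) = Sig p Y B := by
  unfold KK2.Sig
  simp only [h.rr]
  exact Finset.sum_congr rfl fun x _ =>
    h (fun ω => KK2.rr p Y B x ω * -Real.log (KK2.rr p Y B x ω))

end basic

variable {q : ℝ}

lemma good_base (hq : 0 < q) : Good G X q 0 (Real.log (Fintype.card (Finset X)) + 9) := by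
  intro Ω T T' _ p σ Y Z B R A h
  have hp := h.ps
  set S : Ω → Finset X := fun ω => B ω ∪ R ω with hS
  set δ : Ω → Prop := fun ω => B ω = ∅ with hδ
  have h1 : ent p (pair S δ) ≤ ent p (pair B Z) := hp.ent_mono fun a b e => by
    have e1 : B a = B b := (Prod.ext_iff.mp e).1
    have e2 : R a = R b := h.ZR _ _ (Prod.ext_iff.mp e).2
    simp only [hS, hδ, pair, e1, e2]
  have h2 : ∀ ω, pr p (pair S δ) ω * (orb G (S ω)).card ≤ pr p δ ω := by
    intro ω
    have h3 : ∀ t ∈ orb G (S ω), pr p (pair S δ) ω =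
        Ex p (fun a => ind (S a = t ∧ δ a = δ ω)) := by
      intro t ht
      obtain ⟨g, -, rfl⟩ := Finset.mem_image.mp ht
      rw [← MP.of_perm (σ g) (h.inv g) (fun a => ind (S a = g • S ω ∧ δ a = δ ω))]
      refine Ex_congr fun a => ind_congr ?_
      simp only [hS, hδ, Prod.ext_iff, h.eB, h.eR, ← Finset.smul_finset_union,
        smul_left_cancel_iff, Finset.smul_finset_eq_empty]
    rw [mul_comm, ← nsmul_eq_mul, ← Finset.sum_const, Finset.sum_congr rfl h3, ← Ex_sum]
    refine hp.Ex_mono fun a => ?_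
    by_cases ha : δ a = δ ω
    · simp only [ha, and_true, ind_pos trivial, ind_eq_ite]
      rw [Finset.sum_ite_eq]; split_ifs <;> norm_num
    · rw [ind_neg ha, Finset.sum_eq_zero fun t _ => ind_neg (fun e => ha e.2)]
  have h4 : ent p δ - Real.log 2 - Real.log q * (Ec p B + Ec p R) ≤ ent p (pair S δ) := by
    unfold ent Ec
    rw [← hp.Ex_const (Real.log 2), ← Ex_add, ← Ex_mul_left, ← Ex_sub, ← Ex_sub]
    refine hp.Ex_mono fun ω => ?_
    have h5 := h.sp ω (S ω) (Finset.union_subset (h.BA ω) (h.RA ω))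
    have ho : (0 : ℝ) < (orb G (S ω)).card := by
      by_contra hc
      have : ((orb G (S ω)).card : ℝ) = 0 := le_antisymm (not_lt.mp hc) (Nat.cast_nonneg _)
      rw [this] at h5; linarith
    have h6 := Real.log_le_log (by norm_num) h5
    have h7 := Real.log_le_log (mul_pos (hp.pr_pos _ _) ho) (h2 ω)
    rw [Real.log_mul (hp.pr_pos _ _).ne' ho.ne'] at h7
    rw [Real.log_mul ho.ne' (pow_pos hq _).ne', Real.log_pow, one_div, Real.log_inv,
      Finset.card_union_of_disjoint (h.disj ω)] at h6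
    push_cast at h6
    linarith
  have hC : (1 : ℝ) ≤ Fintype.card (Finset X) := by exact_mod_cast Fintype.card_pos
  have h8 := hp.condReduce B (Y := fun _ => ()) (Y' := Y) (fun _ _ _ => rfl)
  have h9 : ent p (pair B (fun _ => ())) = ent p (pair B δ) :=
    ent_congr (fun a b e => by
      have e1 : B a = B b := (Prod.ext_iff.mp e).1
      simp only [hδ, pair, e1]) (fun a b e => Prod.ext (Prod.ext_iff.mp e).1 rfl)
  have h10 := hp.condGibbs B δ
    (fun a t => if B a = ∅ then ind (t = ∅) else (Fintype.card (Finset X) : ℝ)⁻¹)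
    (fun a b e => by simp only [hδ] at e; simp only [e])
    (fun a t => by
      split_ifs
      · exact ind_nonneg _
      · positivity)
    (fun a => by
      split_ifs
      · simp [ind_eq_ite]
      · rw [Finset.sum_const, Finset.card_univ, nsmul_eq_mul, mul_inv_cancel₀ (by linarith)])
    (fun ω => by
      split_ifs with e
      · rw [ind_pos e]; norm_num
      · positivity)
  have h11 : Ex p (fun ω => -Real.log (if B ω = ∅ then ind (B ω = ∅) else
      (Fintype.card (Finset X) : ℝ)⁻¹)) ≤ Real.log (Fintype.card (Finset X)) * Ec p B := by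
    unfold Ec
    rw [← Ex_mul_left]
    refine hp.Ex_mono fun ω => ?_
    have hl := Real.log_nonneg hC
    split_ifs with e
    · rw [ind_pos e, Real.log_one, neg_zero]; positivity
    · rw [Real.log_inv, neg_neg]
      refine le_mul_of_one_le_right hl ?_
      exact_mod_cast Finset.card_pos.mpr (Finset.nonempty_iff_ne_empty.mpr e)
  have h12 := hp.Psi_le Y B
  rw [hp.ent_unit, h9] at h8
  unfold Exc
  linarith

lemma pin_gain {L0 L ζ : ℝ} (h0 : Good G X q 0 L0) (hL : Good G X q ζ L) (hζ : 0 ≤ ζ)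
    {Ω T T' : Type} [Fintype Ω] {p : Ω → ℝ} {σ : G → Equiv.Perm Ω} {Y : Ω → T} {Z : Ω → T'}
    {B R A : Ω → Finset X} (h : Inst q p σ Y Z B R A) (V : Ω → Finset X) (hV : ∀ ω, V ω ⊆ B ω)
    (eV : ∀ g ω, V (σ g ω) = g • V ω) :
    -Exc q p Y Z B R + 6 * (ent p (pair V (pair B Z)) - ent p (pair B Z)) -
      3 * (ent p (pair V Z) + Real.log q * (Ec p V + Ec p R)) ≤
      4 * Real.log 2 + L * (Ec p B - Ec p V) + (3 * L0 + 9 + ζ) * Ec p V + ζ * Sig p Y B := by
  have hp := h.ps
  have hBZ : ∀ g a b, pair B Z (σ g a) = pair B Z (σ g b) ↔ pair B Z a = pair B Z b := by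
    intro g a b
    simp only [Prod.ext_iff, h.eB, smul_left_cancel_iff, h.hZ]
  set p3 := rp p (pair B Z) with hp3
  have hp' : PS p3 := hp.rp _
  have ma : MP p3 p Rep.a := hp.mp_a _
  have mb : MP p3 p Rep.b := hp.mp_b _
  have eqB : ∀ x : Rep (pair B Z), B x.a = B x.b := fun x => (Prod.ext_iff.mp x.eq).1
  have eqZ : ∀ x : Rep (pair B Z), Z x.a = Z x.b := fun x => (Prod.ext_iff.mp x.eq).2
  have hVB : ∀ x : Rep (pair B Z), V x.b ⊆ B x.a := fun x => eqB x ▸ hV x.b
  have I1 : Inst q p3 (fun g => Rep.perm (σ g) (hBZ g)) (fun x => Y x.a) (fun x => Z x.a)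
      (fun x => V x.b) (fun x => R x.a) (fun x => A x.a) :=
    ⟨hp', fun g => rp_perm _ _ (h.inv g), fun g a b => h.hY g _ _, fun g a b => h.hZ g _ _,
      fun a b => h.YZ _ _, fun a b => h.ZR _ _, fun a b => h.YA _ _, fun g x => eV g _,
      fun g x => h.eR g _, fun x => (hVB x).trans (h.BA _), fun x => h.RA _,
      fun x => (h.disj x.a).mono_left (hVB x), fun x => h.sp _⟩
  have I2 : Inst q p3 (fun g => Rep.perm (σ g) (hBZ g)) (pair (fun x => Y x.a) (fun x => V x.b))
      (pair (fun x => Z x.a) (fun x => V x.b)) (fun x => B x.a \ V x.b)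
      (fun x => R x.a ∪ V x.b) (fun x => A x.a) := by
    refine ⟨hp', fun g => rp_perm _ _ (h.inv g), fun g a b => ?_, fun g a b => ?_,
      fun a b e => ?_, fun a b e => ?_, fun a b e => h.YA _ _ (Prod.ext_iff.mp e).1,
      fun g x => ?_, fun g x => ?_, fun x => Finset.sdiff_subset.trans (h.BA _),
      fun x => Finset.union_subset (h.RA _) ((hVB x).trans (h.BA _)), fun x => ?_,
      fun x => h.sp _⟩
    · simp only [Prod.ext_iff, Rep.perm_a, Rep.perm_b, eV, smul_left_cancel_iff, h.hY]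
    · simp only [Prod.ext_iff, Rep.perm_a, Rep.perm_b, eV, smul_left_cancel_iff, h.hZ]
    · exact Prod.ext (h.YZ _ _ (Prod.ext_iff.mp e).1) (Prod.ext_iff.mp e).2
    · have e1 := h.ZR _ _ (Prod.ext_iff.mp e).1
      have e2 : V a.b = V b.b := (Prod.ext_iff.mp e).2
      simp only [e1, e2]
    · simp only [Rep.perm_a, Rep.perm_b, eV, h.eB, Finset.smul_finset_sdiff]
    · simp only [Rep.perm_a, Rep.perm_b, eV, h.eR, Finset.smul_finset_union]
    · exact Finset.disjoint_union_right.mpr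
        ⟨(h.disj x.a).mono_left Finset.sdiff_subset, Finset.sdiff_disjoint⟩
  have g1 := h0 _ _ _ _ _ _ _ _ _ _ I1
  have g2 := hL _ _ _ _ _ _ _ _ _ _ I2
  have g3 := hp'.sel (fun x => V x.b) (fun x => B x.a) hVB (fun x => Y x.a)
  have g4 := hp'.Psi_nonneg (fun x => Y x.a) (fun x => V x.b)
  have g5 := hp'.Psi_nonneg (pair (fun x => Y x.a) (fun x => V x.b)) (fun x => B x.a)
  have key : ∀ a b : Rep (pair B Z), V a.b = V b.b →
      (B a.a \ V a.b = B b.a \ V b.b ↔ B a.a = B b.a) := by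
    intro a b e
    refine ⟨fun e1 => ?_, fun e1 => by rw [e, e1]⟩
    rw [← Finset.sdiff_union_of_subset (hVB a), ← Finset.sdiff_union_of_subset (hVB b), e1, e]
  -- entropies
  have e1 : ent p3 (pair (fun x => V x.b) (fun x => Z x.a)) = ent p (pair V Z) := by
    rw [← mb.ent]; congr 1; funext x; simp only [pair, eqZ]
  have e2 : ent p3 (fun x => Y x.a) = ent p Y := ma.ent Y
  have e3 : ent p3 (pair (fun x => B x.a) (fun x => Y x.a)) = ent p (pair B Y) :=
    ma.ent (pair B Y)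
  have e4 : ent p3 (pair (fun x => B x.a \ V x.b) (pair (fun x => Z x.a) (fun x => V x.b))) =
      ent p (pair V (pair B Z)) := by
    rw [← mb.ent]
    refine ent_congr (fun a b e => ?_) (fun a b e => ?_) <;>
    · simp only [Prod.ext_iff, ← eqB, ← eqZ] at e ⊢
      have := key a b; tauto
  have e5 : ent p3 (pair (fun x => V x.b) (pair (fun x => B x.a) (fun x => Y x.a))) =
      ent p (pair B Y) + ent p (pair V (pair B Z)) - ent p (pair B Z) := by
    have e6 : ent p (pair B Y) = ent p (pair Y (pair B Z)) :=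
      ent_congr (fun a b e => by
        simp only [Prod.ext_iff] at e ⊢; have := h.YZ a b; tauto)
        (fun a b e => by simp only [Prod.ext_iff] at e ⊢; tauto)
    rw [e6, ← hp.ent_rp (pair B Z) Y V]
    refine ent_congr (fun a b e => ?_) (fun a b e => ?_) <;>
    · simp only [Prod.ext_iff] at e ⊢
      have := h.YZ a.a b.a; tauto
  have e7 : ent p3 (pair (fun x => B x.a \ V x.b) (pair (fun x => Y x.a) (fun x => V x.b))) =
      ent p3 (pair (fun x => V x.b) (pair (fun x => B x.a) (fun x => Y x.a))) := by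
    refine ent_congr (fun a b e => ?_) (fun a b e => ?_) <;>
    · simp only [Prod.ext_iff] at e ⊢
      have := key a b; tauto
  have e8 : ent p3 (pair (fun x => Y x.a) (fun x => V x.b)) =
      ent p3 (pair (fun x => V x.b) (fun x => Y x.a)) := by
    refine ent_congr (fun a b e => ?_) (fun a b e => ?_) <;>
    · simp only [Prod.ext_iff] at e ⊢
      tauto
  have c1 : Ec p3 (fun x => V x.b) = Ec p V := mb.Ec V
  have c2 : Ec p3 (fun x => R x.a) = Ec p R := ma.Ec R
  have c3 : Ec p3 (fun x => B x.a \ V x.b) = Ec p B - Ec p V := by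
    rw [← c1, ← ma.Ec B]; unfold Ec; rw [← Ex_sub]
    refine Ex_congr fun x => ?_
    rw [Finset.card_sdiff_of_subset (hVB x), Nat.cast_sub (Finset.card_le_card (hVB x))]
  have c4 : Ec p3 (fun x => R x.a ∪ V x.b) = Ec p R + Ec p V := by
    rw [← c1, ← c2]; unfold Ec; rw [← Ex_add]
    refine Ex_congr fun x => ?_
    rw [Finset.card_union_of_disjoint ((h.disj x.a).mono_left (hVB x)).symm, Nat.cast_add]
  have s1 : Psi p3 (pair (fun x => Y x.a) (fun x => V x.b)) (fun x => B x.a) ≤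
      Psi p3 (pair (fun x => Y x.a) (fun x => V x.b)) (fun x => B x.a \ V x.b) + Ec p V := by
    rw [← c1, Ec_eq, Psi, Psi, ← Finset.sum_add_distrib]
    refine Finset.sum_le_sum fun x _ => ?_
    rw [← Ex_add]
    refine hp'.Ex_mono fun y => ?_
    by_cases hx : x ∈ V y.b
    · rw [ind_pos hx]
      have a1 := hp'.rr_le_one (pair (fun x => Y x.a) (fun x => V x.b)) (fun x => B x.a) x y
      have a2 := mul_le_one₀ a1 (Real.sqrt_nonneg _) (Real.sqrt_le_one.mpr a1)
      have a3 := mul_nonneg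
        (hp'.rr_nonneg (pair (fun x => Y x.a) (fun x => V x.b)) (fun x => B x.a \ V x.b) x y)
        (Real.sqrt_nonneg (rr p3 (pair (fun x => Y x.a) (fun x => V x.b))
          (fun x => B x.a \ V x.b) x y))
      linarith
    · have : rr p3 (pair (fun x => Y x.a) (fun x => V x.b)) (fun x => B x.a) x y =
          rr p3 (pair (fun x => Y x.a) (fun x => V x.b)) (fun x => B x.a \ V x.b) x y := by
        refine ce_congr_cell _ _ fun a ha => ind_congr ?_
        have e : V a.b = V y.b := (Prod.ext_iff.mp ha).2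
        simp only [Finset.mem_sdiff, e, hx, not_false_eq_true, and_true]
      rw [this, ind_neg hx, add_zero]
  have s2 : Sig p3 (pair (fun x => Y x.a) (fun x => V x.b)) (fun x => B x.a \ V x.b) ≤
      Sig p Y B + Ec p V := by
    rw [← c1, Ec_eq, Sig, Sig, ← Finset.sum_add_distrib]
    refine Finset.sum_le_sum fun x _ => ?_
    refine (hp'.cross (f := fun y => ind (x ∈ B y.a \ V y.b)) (c := fun y => rr p Y B x y.a)
      (fun _ => ind_nonneg _) (fun a b e => rr_ref Y B x _ _ (Prod.ext_iff.mp e).1)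
      (fun _ => hp.rr_nonneg _ _ _ _) (fun y hy => hp.rr_pos _ _ (by
        by_contra hc
        rw [ind_neg (fun e => hc (Finset.mem_sdiff.mp e).1)] at hy
        exact lt_irrefl _ hy))).trans ?_
    have a1 : Ex p (fun ω => rr p Y B x ω * -Real.log (rr p Y B x ω)) =
        Ex p3 (fun y => -Real.log (rr p Y B x y.a) * ind (x ∈ B y.a)) := by
      rw [ma (fun ω => -Real.log (rr p Y B x ω) * ind (x ∈ B ω)),
        ← hp.tower (Y := Y) (g := fun ω => -Real.log (rr p Y B x ω))
          (fun a b e => by simp only [rr_ref Y B x a b e]) (fun ω => ind (x ∈ B ω))]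
      exact Ex_congr fun ω => mul_comm _ _
    have a2 : Ex p3 (fun y => rr p Y B x y.a) = Ex p3 (fun y => ind (x ∈ B y.a)) := by
      rw [ma (rr p Y B x), ma (fun ω => ind (x ∈ B ω)), hp.Ex_rr]
    rw [Ex_sub, Ex_add, a2, a1, ← Ex_add, ← Ex_sub, ← Ex_add]
    refine hp'.Ex_mono fun y => ?_
    have a3 := hp.neg_log_rr Y B x y.a
    by_cases h1 : x ∈ V y.b
    · rw [ind_neg (by simp [h1]), ind_pos h1, ind_pos (hVB y h1)]; linarith
    · rw [ind_neg h1, ind_congr (P := x ∈ B y.a \ V y.b) (Q := x ∈ B y.a) (by simp [h1])]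
      linarith
  have s3 := mul_le_mul_of_nonneg_left s2 hζ
  unfold Exc at g1 g2 ⊢
  rw [e1, e2, c1, c2] at g1
  rw [e4, e7, e5, e8, c3, c4] at g2
  rw [e5, e3, e2] at g3
  nlinarith

end Crest.Agent.KK2
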