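import Crest.Agent.Tal.Prob

/-! The Park--Pham argument. -/

set_option autoImplicit false
set_option linter.unnecessarySeqFocus false
set_option linter.unusedSectionVars false
set_option linter.unusedVariables false

namespace Crest.Agent.KK2
open Finset Crest.Agent.Tal

variable {ι : Type*} [Fintype ι] [DecidableEq ι]

/-- no member of the family is fully present -/
def Miss (𝓗 : Finset (Finset ι)) (ω : ι → Bool) : Prop := ∀ S ∈ 𝓗, ¬ ∀ i ∈ S, ω i = true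

/-- the part of a set that is missing -/
def gap (ω : ι → Bool) (S : Finset ι) : Finset ι := S.filter (fun i => ω i = false)

/-- minimal fragments -/
def Frag (𝓗 : Finset (Finset ι)) (ω : ι → Bool) (T : Finset ι) : Prop :=
  (∃ S ∈ 𝓗, T = gap ω S) ∧ ∀ S ∈ 𝓗, gap ω S ⊆ T → T.card ≤ (gap ω S).card

lemma exists_frag (𝓗 : Finset (Finset ι)) (ω : ι → Bool) {S : Finset ι} (hS : S ∈ 𝓗) :
    ∃ T, Frag 𝓗 ω T ∧ T ⊆ S := by
  obtain ⟨S', hS', hmin⟩ := Finset.exists_min_image (𝓗.filter (fun S' => gap ω S' ⊆ S))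
    (fun S' => (gap ω S').card) ⟨S, Finset.mem_filter.mpr ⟨hS, Finset.filter_subset _ _⟩⟩
  obtain ⟨h1, h2⟩ := Finset.mem_filter.mp hS'
  exact ⟨gap ω S', ⟨⟨S', h1, rfl⟩, fun S'' h3 h4 =>
    hmin S'' (Finset.mem_filter.mpr ⟨h3, h4.trans h2⟩)⟩, h2⟩

/-- a canonical member present in `ω` -/
noncomputable def can (𝓗 : Finset (Finset ι)) (ω : ι → Bool) : Finset ι := by
  classical exact if h : ∃ S ∈ 𝓗, ∀ i ∈ S, ω i = true then h.choose else ∅

lemma can_card {𝓗 : Finset (Finset ι)} {l : ℕ} (h : ∀ S ∈ 𝓗, S.card ≤ l) (ω : ι → Bool) :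
    (can 𝓗 ω).card ≤ l := by
  unfold can
  split_ifs with h1
  · exact h _ h1.choose_spec.1
  · simp

lemma Frag.sub_can {𝓗 : Finset (Finset ι)} {ω : ι → Bool} {T : Finset ι} (h : Frag 𝓗 ω T) :
    T ⊆ can 𝓗 (fun i => decide (i ∈ T) || ω i) := by
  obtain ⟨⟨S, hS, hT⟩, hmin⟩ := h
  have h1 : ∃ S ∈ 𝓗, ∀ i ∈ S, (decide (i ∈ T) || ω i) = true := by
    refine ⟨S, hS, fun i hi => ?_⟩
    cases hω : ω i
    · simp [hT, gap, hi, hω]
    · simp
  unfold can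
  rw [dif_pos h1]
  obtain ⟨h2, h3⟩ := h1.choose_spec
  have h4 : gap ω h1.choose ⊆ T := by
    intro i hi
    obtain ⟨a, b⟩ := Finset.mem_filter.mp hi
    simpa [b] using h3 i a
  have h5 := Finset.eq_of_subset_of_card_le h4 (hmin _ h2 h4)
  intro i hi
  rw [← h5] at hi
  exact (Finset.mem_filter.mp hi).1

lemma frag_cost {κ : ℝ} (hκ : 0 < κ) (hκ1 : 8 * κ ≤ 1) {𝓗 : Finset (Finset ι)} {l : ℕ}
    (h : ∀ S ∈ 𝓗, S.card ≤ l) :
    E (8 * κ) (fun ω => ∑ T, ind (Frag 𝓗 ω T ∧ l / 2 < T.card) * κ ^ T.card) ≤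
      (1 / 2) ^ (l / 2 + 2) := by
  have h0 : 0 ≤ 8 * κ := by positivity
  have h1 : ∀ T : Finset ι,
      E (8 * κ) (fun ω => ind (Frag 𝓗 ω T ∧ l / 2 < T.card) * κ ^ T.card) ≤
      E (8 * κ) (fun ω => ind (T ⊆ can 𝓗 ω) * (1 / 8) ^ (l / 2 + 1)) := by
    intro T
    by_cases hT : l / 2 < T.card
    · have h2 := E_cond (8 * κ) T (fun ω => ind (T ⊆ can 𝓗 ω))
      have h3 : E (8 * κ) (fun ω => ind (Frag 𝓗 ω T ∧ l / 2 < T.card) * κ ^ T.card) ≤
          E (8 * κ) (fun ω => ind (T ⊆ can 𝓗 (fun i => decide (i ∈ T) || ω i)) * κ ^ T.card) :=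
        E_mono h0 hκ1 fun ω => mul_le_mul_of_nonneg_right (ind_mono fun e => e.1.sub_can)
          (by positivity)
      have h4 : E (8 * κ) (fun ω => ind (∀ i ∈ T, ω i = true) * ind (T ⊆ can 𝓗 ω)) ≤
          E (8 * κ) (fun ω => ind (T ⊆ can 𝓗 ω)) :=
        E_mono h0 hκ1 fun ω => mul_le_of_le_one_left (ind_nonneg _) (ind_le_one _)
      have h5 : 0 ≤ E (8 * κ) (fun ω => ind (T ⊆ can 𝓗 ω)) :=
        E_nonneg h0 hκ1 fun _ => ind_nonneg _
      refine h3.trans ?_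
      unfold E at h2 h4 h5 ⊢
      rw [PE_mul_right, PE_mul_right]
      rw [h2, mul_pow] at h4
      have h6 : (1 / 8 : ℝ) ^ T.card ≤ (1 / 8) ^ (l / 2 + 1) :=
        pow_le_pow_of_le_one (by norm_num) (by norm_num) hT
      have h7 := mul_le_mul_of_nonneg_right h4 (by positivity : (0 : ℝ) ≤ (1 / 8) ^ T.card)
      have h8 : (8 : ℝ) ^ T.card * (1 / 8) ^ T.card = 1 := by rw [← mul_pow]; norm_num
      calc _ = 8 ^ T.card * κ ^ T.card * PE (fun _ => bw (8 * κ))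
            (fun ω => ind (T ⊆ can 𝓗 (fun i => decide (i ∈ T) || ω i))) * (1 / 8) ^ T.card := by
              linear_combination (-(κ ^ T.card * PE (fun _ => bw (8 * κ))
                (fun ω => ind (T ⊆ can 𝓗 (fun i => decide (i ∈ T) || ω i))))) * h8
        _ ≤ _ := h7
        _ ≤ _ := mul_le_mul_of_nonneg_left h6 h5
    · refine E_mono h0 hκ1 fun ω => ?_
      rw [ind_neg (fun e => hT e.2), zero_mul]
      exact mul_nonneg (ind_nonneg _) (by positivity)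
  unfold E at h1 ⊢
  rw [PE_sum]
  refine (Finset.sum_le_sum fun T _ => h1 T).trans ?_
  rw [← PE_sum]
  refine le_trans (E_mono h0 hκ1 fun ω => ?_) (E_const (8 * κ) _).le
  rw [← Finset.sum_mul, sum_ind_eq_card]
  have h2 : (univ.filter (fun T : Finset ι => T ⊆ can 𝓗 ω)).card ≤ 2 ^ (2 * (l / 2) + 1) := by
    rw [show univ.filter (fun T : Finset ι => T ⊆ can 𝓗 ω) = (can 𝓗 ω).powerset by
      ext T; simp, Finset.card_powerset]
    exact Nat.pow_le_pow_right (by norm_num) ((can_card h ω).trans (by omega))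
  have h3 : ((univ.filter (fun T : Finset ι => T ⊆ can 𝓗 ω)).card : ℝ) ≤
      2 ^ (2 * (l / 2) + 1) := by exact_mod_cast h2
  refine (mul_le_mul_of_nonneg_right h3 (by positivity)).trans (le_of_eq ?_)
  have h4 : (4 : ℝ) ^ (l / 2) * (1 / 8) ^ (l / 2) = (1 / 2) ^ (l / 2) := by
    rw [← mul_pow]; norm_num
  rw [pow_succ, pow_mul, pow_succ (1 / 8 : ℝ), pow_add, ← h4]
  norm_num; ring

lemma pp_zero {κ ρ c : ℝ} (h0 : 0 ≤ ρ) (h1 : ρ ≤ 1) {𝓗 : Finset (Finset ι)}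
    (h : ∀ S ∈ 𝓗, S.card ≤ 0)
    (hc : ∀ 𝓖 : Finset (Finset ι), (∀ S ∈ 𝓗, ∃ T ∈ 𝓖, T ⊆ S) → c ≤ ∑ T ∈ 𝓖, κ ^ T.card) :
    c * E ρ (fun ω => ind (Miss 𝓗 ω)) ≤ 0 := by
  rcases 𝓗.eq_empty_or_nonempty with rfl | ⟨S, hS⟩
  · have := hc ∅ (by simp)
    rw [Finset.sum_empty] at this
    exact mul_nonpos_of_nonpos_of_nonneg this (E_nonneg h0 h1 fun _ => ind_nonneg _)
  · have h2 : S = ∅ := Finset.card_eq_zero.mp (Nat.le_zero.mp (h S hS))
    have h3 : (fun ω : ι → Bool => ind (Miss 𝓗 ω)) = fun _ => 0 := by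
      funext ω; exact ind_neg fun e => e S hS (by simp [h2])
    rw [h3, E_const, mul_zero]

lemma pp {κ : ℝ} (hκ : 0 < κ) (hκ1 : 8 * κ ≤ 1) (t : ℕ) :
    ∀ (l : ℕ) (𝓗 : Finset (Finset ι)) (c : ℝ), (∀ S ∈ 𝓗, S.card ≤ l) → l < 2 ^ t →
      (∀ 𝓖 : Finset (Finset ι), (∀ S ∈ 𝓗, ∃ T ∈ 𝓖, T ⊆ S) → c ≤ ∑ T ∈ 𝓖, κ ^ T.card) →
      c * E (1 - (1 - 8 * κ) ^ t) (fun ω => ind (Miss 𝓗 ω)) ≤ (1 - (1 / 2) ^ l) / 2 := by
  classical
  have hr : ∀ t : ℕ, 0 ≤ 1 - (1 - 8 * κ) ^ t ∧ 1 - (1 - 8 * κ) ^ t ≤ 1 := fun t =>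
    ⟨sub_nonneg.mpr (pow_le_one₀ (by linarith) (by linarith)),
      sub_le_self _ (pow_nonneg (by linarith) _)⟩
  induction t with
  | zero =>
    intro l 𝓗 c h hl hc
    obtain rfl : l = 0 := by omega
    simpa using pp_zero (hr 0).1 (hr 0).2 h hc
  | succ t ih =>
    intro l 𝓗 c h hl hc
    rcases Nat.eq_zero_or_pos l with rfl | hl0
    · simpa using pp_zero (hr _).1 (hr _).2 h hc
    have h0 : 0 ≤ 8 * κ := by positivity
    have e1 : 1 - (1 - 8 * κ) ^ (t + 1) =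
        8 * κ + (1 - (1 - 8 * κ) ^ t) - 8 * κ * (1 - (1 - 8 * κ) ^ t) := by ring
    rw [e1, ← E_union]
    have key : ∀ ω : ι → Bool,
        c * E (1 - (1 - 8 * κ) ^ t) (fun η => ind (Miss 𝓗 (fun i => ω i || η i))) ≤
        ∑ T, ind (Frag 𝓗 ω T ∧ l / 2 < T.card) * κ ^ T.card + (1 - (1 / 2) ^ (l / 2)) / 2 := by
      intro ω
      set u := ∑ T, ind (Frag 𝓗 ω T ∧ l / 2 < T.card) * κ ^ T.card with hu
      have hu' : u = ∑ T ∈ univ.filter (fun T => Frag 𝓗 ω T ∧ l / 2 < T.card), κ ^ T.card := by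
        rw [hu, Finset.sum_filter]
        refine Finset.sum_congr rfl fun T _ => ?_
        rw [ind_eq_ite]; split_ifs <;> simp
      have hu0 : 0 ≤ u := Finset.sum_nonneg fun T _ => mul_nonneg (ind_nonneg _) (by positivity)
      have h1 := ih (l / 2) (univ.filter (fun T => Frag 𝓗 ω T ∧ T.card ≤ l / 2)) (c - u)
        (fun S hS => (Finset.mem_filter.mp hS).2.2) (by omega) (by
          intro 𝓖 h𝓖
          have h2 := hc (univ.filter (fun T => Frag 𝓗 ω T ∧ l / 2 < T.card) ∪ 𝓖) (by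
            intro S hS
            obtain ⟨T, hT, hTS⟩ := exists_frag 𝓗 ω hS
            by_cases h3 : l / 2 < T.card
            · exact ⟨T, Finset.mem_union_left _ (by simp [hT, h3]), hTS⟩
            · obtain ⟨T', h4, h5⟩ := h𝓖 T (by simp [hT, not_lt.mp h3])
              exact ⟨T', Finset.mem_union_right _ h4, h5.trans hTS⟩)
          have h3 := Finset.sum_union_inter (f := fun T : Finset ι => κ ^ T.card)
            (s₁ := univ.filter (fun T => Frag 𝓗 ω T ∧ l / 2 < T.card)) (s₂ := 𝓖)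
          have h4 : 0 ≤ ∑ T ∈ univ.filter (fun T => Frag 𝓗 ω T ∧ l / 2 < T.card) ∩ 𝓖,
              κ ^ T.card := Finset.sum_nonneg fun T _ => by positivity
          rw [hu']; linarith)
      have h2 : E (1 - (1 - 8 * κ) ^ t) (fun η => ind (Miss 𝓗 (fun i => ω i || η i))) ≤
          E (1 - (1 - 8 * κ) ^ t)
            (fun η => ind (Miss (univ.filter (fun T => Frag 𝓗 ω T ∧ T.card ≤ l / 2)) η)) := by
        refine E_mono (hr t).1 (hr t).2 fun η => ind_mono fun e T hT hη => ?_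
        obtain ⟨S, hS, rfl⟩ := (Finset.mem_filter.mp hT).2.1.1
        refine e S hS fun i hi => ?_
        cases hω : ω i
        · simpa [hω] using hη i (by simp [gap, hi, hω])
        · simp [hω]
      have h3 : 0 ≤ E (1 - (1 - 8 * κ) ^ t) (fun η => ind (Miss 𝓗 (fun i => ω i || η i))) :=
        E_nonneg (hr t).1 (hr t).2 fun _ => ind_nonneg _
      have h4 : E (1 - (1 - 8 * κ) ^ t) (fun η => ind (Miss 𝓗 (fun i => ω i || η i))) ≤ 1 :=
        (E_mono (hr t).1 (hr t).2 fun _ => ind_le_one _).trans (E_const _ 1).le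
      have h5 : (1 / 2 : ℝ) ^ (l / 2) ≤ 1 := pow_le_one₀ (by norm_num) (by norm_num)
      rcases le_total 0 (c - u) with h6 | h6
      · nlinarith [mul_le_mul_of_nonneg_left h2 h6]
      · nlinarith [mul_nonpos_of_nonpos_of_nonneg h6 h3]
    have h1 := E_mono h0 hκ1 key
    have h2 := frag_cost hκ hκ1 h
    unfold E at h1 h2 ⊢
    rw [PE_mul_left, PE_add, PE_const (fun _ => bw_sum _)] at h1
    have h3 : (1 / 2 : ℝ) ^ l ≤ (1 / 2) ^ (l / 2 + 1) :=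
      pow_le_pow_of_le_one (by norm_num) (by norm_num) (by omega)
    rw [pow_succ] at h3
    rw [pow_add] at h2
    linarith

/-- spread families are hit -/
theorem pp_main {κ ρ : ℝ} (hκ : 0 < κ) {𝓗 : Finset (Finset ι)} (hne : 𝓗.Nonempty) {l : ℕ}
    (h : ∀ S ∈ 𝓗, S.card ≤ l)
    (hc : ∀ 𝓖 : Finset (Finset ι), (∀ S ∈ 𝓗, ∃ T ∈ 𝓖, T ⊆ S) → 1 ≤ ∑ T ∈ 𝓖, κ ^ T.card)
    (hρ : 8 * κ * (1 + Real.logb 2 l) ≤ ρ) :
    1 / 2 ≤ E (min 1 ρ) (fun ω => ind (¬ Miss 𝓗 ω)) := by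
  have hmono : ∀ x y : ι → Bool, (∀ i, x i = true → y i = true) →
      ind (¬ Miss 𝓗 x) ≤ ind (¬ Miss 𝓗 y) := fun x y hxy =>
    ind_mono fun e e' => e fun S hS hx => e' S hS fun i hi => hxy i (hx i hi)
  have hl : ((Nat.log 2 l : ℕ) : ℝ) ≤ Real.logb 2 l := by
    exact_mod_cast Real.natLog_le_logb l 2
  have hl0 : (0 : ℝ) ≤ Nat.log 2 l := Nat.cast_nonneg _
  rcases le_total (8 * κ) 1 with h1 | h1
  · have h2 := pp hκ h1 (Nat.log 2 l + 1) l 𝓗 1 h (Nat.lt_pow_succ_log_self (by norm_num) l) hc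
    have h3 : 1 + ((Nat.log 2 l + 1 : ℕ) : ℝ) * (-(8 * κ)) ≤ (1 + -(8 * κ)) ^ (Nat.log 2 l + 1) :=
      one_add_mul_le_pow (by linarith) _
    have h4 : 0 ≤ (1 - 8 * κ) ^ (Nat.log 2 l + 1) := pow_nonneg (by linarith) _
    have h5 : (1 - 8 * κ) ^ (Nat.log 2 l + 1) ≤ 1 := pow_le_one₀ (by linarith) (by linarith)
    rw [← sub_eq_add_neg] at h3
    push_cast at h3
    refine le_trans ?_ (E_mono_p (p := 1 - (1 - 8 * κ) ^ (Nat.log 2 l + 1)) (by linarith)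
      (le_min (by linarith) (by nlinarith)) (min_le_left _ _) _ hmono)
    unfold E at h2 ⊢
    rw [PE_ind_not (fun _ => bw_sum _)]
    have h6 : (0 : ℝ) ≤ (1 / 2) ^ l := by positivity
    linarith
  · rw [min_eq_left (by nlinarith)]
    obtain ⟨S, hS⟩ := hne
    have h2 := E_cond 1 (univ : Finset ι) (fun ω => ind (¬ Miss 𝓗 ω))
    have h3 : ind (¬ Miss 𝓗 (fun _ => true)) = 1 := ind_pos fun e => e S hS (by simp)
    simp only [Finset.mem_univ, decide_true, Bool.true_or, one_pow, one_mul, h3, E_const] at h2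
    refine le_trans (by norm_num) (h2.ge.trans (E_mono (by norm_num) le_rfl fun ω => ?_))
    exact mul_le_of_le_one_left (ind_nonneg _) (ind_le_one _)

end Crest.Agent.KK2
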