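import Crest.Agent.KK2.Ent

/-! Conditionally independent replicas and the selection lemma. -/

set_option autoImplicit false
set_option linter.unnecessarySeqFocus false
set_option linter.unusedSectionVars false
set_option linter.unusedVariables false

namespace Crest.Agent.KK2
open Finset Crest.Agent.Tal

variable {Ω : Type*} [Fintype Ω] {T T' T'' : Type*} {p : Ω → ℝ}

/-- pairs agreeing on `Y` -/
def Rep (Y : Ω → T) : Type _ := {x : Ω × Ω // Y x.1 = Y x.2}

noncomputable instance (Y : Ω → T) : Fintype (Rep Y) := by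
  classical exact Subtype.fintype _

/-- first coordinate -/
def Rep.a {Y : Ω → T} (x : Rep Y) : Ω := x.1.1
/-- second coordinate -/
def Rep.b {Y : Ω → T} (x : Rep Y) : Ω := x.1.2

lemma Rep.eq {Y : Ω → T} (x : Rep Y) : Y x.a = Y x.b := x.2

/-- weights of the replica space -/
noncomputable def rp (p : Ω → ℝ) (Y : Ω → T) (x : Rep Y) : ℝ := p x.a * p x.b / pr p Y x.a

lemma Ex_rp (Y : Ω → T) (F : Ω → Ω → ℝ) :
    Ex (rp p Y) (fun x => F x.a x.b) =
      Ex p (fun a => Ex p (fun b => ind (Y b = Y a) * F a b) / pr p Y a) := by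
  classical
  have h1 : Ex (rp p Y) (fun x => F x.a x.b) =
      ∑ x ∈ (univ : Finset (Ω × Ω)).filter (fun x => Y x.1 = Y x.2),
        p x.1 * p x.2 / pr p Y x.1 * F x.1 x.2 := by
    symm
    exact Finset.sum_subtype (p := fun x : Ω × Ω => Y x.1 = Y x.2) (F := inferInstanceAs (Fintype (Rep Y))) _ (by simp) _
  rw [h1, Finset.sum_filter, Fintype.sum_prod_type]
  simp only [Ex, Finset.sum_div, Finset.mul_sum]
  refine Finset.sum_congr rfl fun a _ => Finset.sum_congr rfl fun b _ => ?_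
  by_cases h : Y a = Y b
  · rw [if_pos h, ind_pos h.symm]; ring
  · rw [if_neg h, ind_neg (Ne.symm h)]; ring

lemma Ex_rp_mul (Y : Ω → T) (f g : Ω → ℝ) :
    Ex (rp p Y) (fun x => f x.a * g x.b) = Ex p (fun a => f a * ce p Y g a) := by
  rw [Ex_rp Y (fun a b => f a * g b)]
  refine Ex_congr fun a => ?_
  rw [ce, ← mul_div_assoc, ← Ex_mul_left]
  congr 1; exact Ex_congr fun b => by ring

lemma PS.mp_a (hp : PS p) (Y : Ω → T) : MP (rp p Y) p Rep.a := by
  intro f
  have := Ex_rp_mul (p := p) Y f (fun _ => 1)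
  simp only [mul_one, hp.ce_const] at this
  exact this

lemma PS.mp_b (hp : PS p) (Y : Ω → T) : MP (rp p Y) p Rep.b := by
  intro f
  have := Ex_rp_mul (p := p) Y (fun _ => 1) f
  rw [hp.tower (fun _ _ _ => rfl)] at this
  simp only [one_mul] at this
  exact this

lemma PS.rp (hp : PS p) (Y : Ω → T) : PS (rp p Y) := by
  refine ⟨fun x => div_pos (mul_pos (hp.pos _) (hp.pos _)) (hp.pr_pos _ _), ?_⟩
  have := hp.mp_a Y (fun _ => 1)
  rw [hp.Ex_const] at this
  simpa [Ex] using this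

lemma PS.Ex_rp_mul3 (hp : PS p) {Y : Ω → T} {g : Ω → ℝ} (hg : Ref Y g) (f1 f2 : Ω → ℝ) :
    Ex (KK2.rp p Y) (fun x => g x.a * f1 x.a * f2 x.b) =
      Ex p (fun a => g a * ce p Y f1 a * ce p Y f2 a) := by
  rw [Ex_rp_mul Y (fun a => g a * f1 a) f2]
  have := hp.tower (Y := Y) (g := fun a => g a * ce p Y f2 a)
    (fun a b e => by simp only [hg a b e, ce_ref (p := p) Y f2 a b e]) f1
  rw [Ex_congr (g := fun a => g a * ce p Y f2 a * f1 a) fun a => by ring, ← this]
  exact Ex_congr fun a => by ring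

lemma PS.pr_rp (hp : PS p) (Y : Ω → T) (X1 : Ω → T') (X2 : Ω → T'') (x : Rep Y) :
    pr (KK2.rp p Y) (fun x => (X1 x.a, X2 x.b, Y x.a)) x =
      pr p (pair X1 Y) x.a * pr p (pair X2 Y) x.b / pr p Y x.a := by
  have h1 : pr (KK2.rp p Y) (fun x => (X1 x.a, X2 x.b, Y x.a)) x =
      Ex (KK2.rp p Y) (fun y => ind (pair X1 Y y.a = pair X1 Y x.a) * ind (X2 y.b = X2 x.b)) := by
    refine Ex_congr fun y => ?_
    rw [← ind_and]; exact ind_congr (by simp only [Prod.ext_iff]; tauto)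
  rw [h1, Ex_rp_mul Y (fun a => ind (pair X1 Y a = pair X1 Y x.a)) (fun b => ind (X2 b = X2 x.b)),
    mul_div_assoc, pr_ref (p := p) Y _ _ x.eq, ← ce_ind_self, pr, ← Ex_mul_right]
  refine Ex_congr fun a => ?_
  by_cases h : pair X1 Y a = pair X1 Y x.a
  · rw [ce_ref (p := p) Y _ a x.b ((Prod.ext_iff.mp h).2.trans x.eq)]
  · rw [ind_neg h, zero_mul, zero_mul]

/-- conditional independence of the replicas -/
lemma PS.ent_rp (hp : PS p) (Y : Ω → T) (X1 : Ω → T') (X2 : Ω → T'') :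
    ent (KK2.rp p Y) (fun x => (X1 x.a, X2 x.b, Y x.a)) =
      ent p (pair X1 Y) + ent p (pair X2 Y) - ent p Y := by
  unfold ent
  rw [← hp.mp_a Y, ← hp.mp_b Y (fun ω => -Real.log (pr p (pair X2 Y) ω)),
    ← hp.mp_a Y (fun ω => -Real.log (pr p Y ω)), ← Ex_add, ← Ex_sub]
  refine Ex_congr fun x => ?_
  rw [hp.pr_rp, Real.log_div (mul_pos (hp.pr_pos _ _) (hp.pr_pos _ _)).ne' (hp.pr_pos _ _).ne',
    Real.log_mul (hp.pr_pos _ _).ne' (hp.pr_pos _ _).ne']
  ring

/-- a symmetry of the base space preserving the partition lifts to the replica space -/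
def Rep.perm {Y : Ω → T} (σ : Equiv.Perm Ω) (h : ∀ a b, Y (σ a) = Y (σ b) ↔ Y a = Y b) :
    Equiv.Perm (Rep Y) :=
  Equiv.subtypeEquiv (Equiv.prodCongr σ σ) (fun x => (h x.1 x.2).symm)

lemma Rep.perm_a {Y : Ω → T} (σ : Equiv.Perm Ω) (h : ∀ a b, Y (σ a) = Y (σ b) ↔ Y a = Y b)
    (x : Rep Y) : (Rep.perm σ h x).a = σ x.a := rfl

lemma Rep.perm_b {Y : Ω → T} (σ : Equiv.Perm Ω) (h : ∀ a b, Y (σ a) = Y (σ b) ↔ Y a = Y b)
    (x : Rep Y) : (Rep.perm σ h x).b = σ x.b := rfl

lemma rp_perm {Y : Ω → T} (σ : Equiv.Perm Ω) (h : ∀ a b, Y (σ a) = Y (σ b) ↔ Y a = Y b)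
    (hσ : ∀ ω, p (σ ω) = p ω) (x : Rep Y) : rp p Y (Rep.perm σ h x) = rp p Y x := by
  unfold rp
  rw [Rep.perm_a, Rep.perm_b, hσ, hσ, ← (MP.of_perm σ hσ).pr,
    pr_congr (X := Y) (fun a b e => (h a b).mp e) (fun a b e => (h a b).mpr e)]

section sel
variable {X : Type*} [Fintype X] [DecidableEq X]

/-- conditional marginal of a random set -/
noncomputable def rr (p : Ω → ℝ) (Y : Ω → T) (B : Ω → Finset X) (x : X) : Ω → ℝ :=
  ce p Y (fun a => ind (x ∈ B a))

lemma PS.rr_nonneg (hp : PS p) (Y : Ω → T) (B : Ω → Finset X) (x : X) (ω : Ω) :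
    0 ≤ rr p Y B x ω := hp.ce_nonneg _ (fun _ => ind_nonneg _) _

lemma PS.rr_le_one (hp : PS p) (Y : Ω → T) (B : Ω → Finset X) (x : X) (ω : Ω) :
    rr p Y B x ω ≤ 1 := hp.ce_le_one _ (fun _ => ind_le_one _) _

lemma PS.rr_pos (hp : PS p) (Y : Ω → T) (B : Ω → Finset X) {x : X} {ω : Ω} (h : x ∈ B ω) :
    0 < rr p Y B x ω :=
  hp.ce_pos _ (fun _ => ind_nonneg _) (by rw [ind_pos h]; norm_num)

lemma rr_ref (Y : Ω → T) (B : Ω → Finset X) (x : X) : Ref Y (rr p Y B x) := ce_ref _ _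

/-- the potential -/
noncomputable def Psi (p : Ω → ℝ) (Y : Ω → T) (B : Ω → Finset X) : ℝ :=
  ∑ x, Ex p (fun ω => rr p Y B x ω * √(rr p Y B x ω))

/-- the sum of the marginal informations -/
noncomputable def Sig (p : Ω → ℝ) (Y : Ω → T) (B : Ω → Finset X) : ℝ :=
  ∑ x, Ex p (fun ω => rr p Y B x ω * -Real.log (rr p Y B x ω))

lemma PS.psi_mono (hp : PS p) {Y : Ω → T} {Y' : Ω → T'} (h : Ref Y' Y) (B : Ω → Finset X) (x : X) :
    Ex p (fun ω => rr p Y B x ω * √(rr p Y B x ω)) ≤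
      Ex p (fun ω => rr p Y' B x ω * √(rr p Y' B x ω)) := by
  have hs : Ref Y (fun ω => √(rr p Y B x ω)) := fun a b e => by simp only [rr_ref Y B x a b e]
  refine le_trans (le_of_eq ?_) (hp.tangent (Y := Y') (f := fun a => ind (x ∈ B a))
    (fun _ => ind_nonneg _) (h.trans hs) (fun _ => Real.sqrt_nonneg _))
  rw [Ex_sub, Ex_mul_left, ← hp.tower hs, ← Ex_mul_left, ← Ex_sub]
  refine Ex_congr fun ω => ?_
  have := Real.sq_sqrt (hp.rr_nonneg Y B x ω)
  change _ = 3 / 2 * (√(rr p Y B x ω) * rr p Y B x ω) - _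
  rw [pow_succ, this]; ring

lemma PS.sel_step (hp : PS p) (V B : Ω → Finset X) (hV : ∀ ω, V ω ⊆ B ω) (Y : Ω → T) (e : X) :
    3 * (ent p (pair (fun ω => V ω ∩ {e}) (pair B Y)) - ent p (pair B Y)) ≤
      ent p (pair (fun ω => V ω ∩ {e}) Y) - ent p Y +
        2 * Ex p (fun ω => rr p Y B e ω * √(rr p Y B e ω)) := by
  set r := rr p Y B e with hr
  have hr0 := hp.rr_nonneg Y B e
  have hrr := rr_ref (p := p) Y B e
  rw [← hr] at hr0 hrr
  have h1 := hp.setGibbs (fun ω => V ω ∩ {e}) (pair B Y)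
    (fun a x => ind (x = e ∧ e ∈ B a) * √(r a))
    (fun a b h => by
      have h1 := (Prod.ext_iff.mp h).1
      have h2 := hrr _ _ (Prod.ext_iff.mp h).2
      simp only at h1; simp only [h1, h2])
    (fun a x => mul_nonneg (ind_nonneg _) (Real.sqrt_nonneg _))
    (fun ω x hx => by
      obtain ⟨h1, h2⟩ := Finset.mem_inter.mp hx
      rw [Finset.mem_singleton] at h2; subst h2
      rw [ind_pos ⟨rfl, hV _ h1⟩, one_mul]
      exact Real.sqrt_pos.mpr (hp.rr_pos Y B (hV _ h1)))
  have h2 : ∀ ω, ∑ x, (ind (x ∈ V ω ∩ {e}) * -Real.log (ind (x = e ∧ e ∈ B ω) * √(r ω)) +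
      ind (x = e ∧ e ∈ B ω) * √(r ω)) =
      1 / 2 * (ind (e ∈ V ω) * -Real.log (r ω)) + √(r ω) * ind (e ∈ B ω) := by
    intro ω
    rw [Finset.sum_eq_single e]
    · by_cases h : e ∈ V ω
      · rw [ind_pos (by simp [h]), ind_pos ⟨rfl, hV _ h⟩, ind_pos h, ind_pos (hV _ h), one_mul,
          one_mul, Real.log_sqrt (hr0 ω)]; ring
      · rw [ind_neg (by simp [h]), ind_neg h, ind_congr (Q := e ∈ B ω) (by simp)]; ring
    · intro x _ hx
      rw [ind_neg (by simp [hx]), ind_neg (by simp [hx])]; ring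
    · simp
  rw [Ex_congr h2, Ex_add, Ex_mul_left,
    ← hp.tower (Y := Y) (g := fun ω => √(r ω)) (fun a b h => by simp only [hrr a b h])] at h1
  have h3 := hp.condGibbs B (pair (fun ω => V ω ∩ {e}) Y)
    (fun a t => ce p Y (fun b => ind (B b = t)) a *
      (if e ∈ V a then ind (e ∈ t) / r a else 1))
    (fun a b h => by
      have h1 := (Prod.ext_iff.mp h).1
      have h2 := (Prod.ext_iff.mp h).2
      simp only at h1 h2
      have h3 : e ∈ V a ↔ e ∈ V b := by
        have := Finset.ext_iff.mp h1 e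
        simpa using this
      funext t
      simp only [h3, hrr _ _ h2, ce_ref (p := p) Y _ a b h2])
    (fun a t => mul_nonneg (hp.ce_nonneg _ (fun _ => ind_nonneg _) _) (by
      split_ifs
      · exact div_nonneg (ind_nonneg _) (hr0 _)
      · norm_num))
    (fun a => by
      by_cases h : e ∈ V a
      · simp only [if_pos h, ← mul_div_assoc]
        rw [← Finset.sum_div, hp.sum_ce_ind B Y (fun t => e ∈ t)]
        exact div_self_le_one _
      · simp only [if_neg h, mul_one]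
        have := hp.sum_ce_ind B Y (fun _ => True) a
        simp only [ind_pos trivial, mul_one] at this
        rw [this, hp.ce_const])
    (fun ω => mul_pos (hp.ce_pos _ (fun _ => ind_nonneg _) (by rw [ind_pos rfl]; norm_num)) (by
      split_ifs with h
      · rw [ind_pos (hV _ h)]; exact div_pos one_pos (hp.rr_pos Y B (hV _ h))
      · norm_num))
  have h4 : ∀ ω, -Real.log (ce p Y (fun b => ind (B b = B ω)) ω *
      (if e ∈ V ω then ind (e ∈ B ω) / r ω else 1)) =
      -Real.log (pr p (pair B Y) ω) - -Real.log (pr p Y ω) - ind (e ∈ V ω) * -Real.log (r ω) := by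
    intro ω
    rw [ce_ind_self]
    by_cases h : e ∈ V ω
    · rw [if_pos h, ind_pos h, ind_pos (hV _ h),
        Real.log_mul (div_pos (hp.pr_pos _ _) (hp.pr_pos _ _)).ne'
          (div_pos one_pos (hp.rr_pos Y B (hV _ h))).ne',
        Real.log_div (hp.pr_pos _ _).ne' (hp.pr_pos _ _).ne', one_div, Real.log_inv]
      ring
    · rw [if_neg h, ind_neg h, mul_one, Real.log_div (hp.pr_pos _ _).ne' (hp.pr_pos _ _).ne']
      ring
  rw [Ex_congr h4, Ex_sub, Ex_sub] at h3
  have h5 : ent p (pair B (pair (fun ω => V ω ∩ {e}) Y)) =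
      ent p (pair (fun ω => V ω ∩ {e}) (pair B Y)) :=
    ent_congr (fun a b h => by simp only [Prod.ext_iff] at h ⊢; tauto)
      (fun a b h => by simp only [Prod.ext_iff] at h ⊢; tauto)
  have h6 : Ex p (fun ω => √(r ω) * ce p Y (fun a => ind (e ∈ B a)) ω) =
      Ex p (fun ω => r ω * √(r ω)) := Ex_congr fun ω => mul_comm _ _
  rw [h5] at h3
  rw [h6] at h1
  unfold ent at h1 h3 ⊢
  linarith

/-- the selection lemma -/
lemma PS.sel (hp : PS p) (V B : Ω → Finset X) (hV : ∀ ω, V ω ⊆ B ω) (Y : Ω → T) :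
    3 * (ent p (pair V (pair B Y)) - ent p (pair B Y)) ≤
      ent p (pair V Y) - ent p Y + 2 * Psi p (pair Y V) B := by
  have key : ∀ S : Finset X,
      3 * (ent p (pair (fun ω => V ω ∩ S) (pair B Y)) - ent p (pair B Y)) ≤
      ent p (pair (fun ω => V ω ∩ S) Y) - ent p Y +
        2 * ∑ x ∈ S, Ex p (fun ω => rr p (pair Y V) B x ω * √(rr p (pair Y V) B x ω)) := by
    intro S
    induction S using Finset.induction_on with
    | empty =>
      have e1 : ent p (pair (fun ω => V ω ∩ ∅) (pair B Y)) = ent p (pair B Y) :=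
        ent_congr (Ref.snd _ _) (fun a b h => Prod.ext (by simp) h)
      have e2 : ent p (pair (fun ω => V ω ∩ ∅) Y) = ent p Y :=
        ent_congr (Ref.snd _ _) (fun a b h => Prod.ext (by simp) h)
      rw [e1, e2]
      simp
    | insert e S he ih =>
      have h1 := hp.sel_step V B hV (pair Y (fun ω => V ω ∩ S)) e
      have h2 := hp.psi_mono (Y := pair Y (fun ω => V ω ∩ S)) (Y' := pair Y V)
        (fun a b h => by simp only [Prod.ext_iff] at h ⊢; rw [h.2]; exact ⟨h.1, rfl⟩) B e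
      have hk : ∀ a b, V a ∩ insert e S = V b ∩ insert e S ↔
          V a ∩ {e} = V b ∩ {e} ∧ V a ∩ S = V b ∩ S := by
        intro a b
        simp only [Finset.ext_iff, Finset.mem_inter, Finset.mem_insert, Finset.mem_singleton]
        constructor
        · intro h; constructor <;> intro x <;> have := h x <;> tauto
        · rintro ⟨h1, h2⟩ x; have := h1 x; have := h2 x; tauto
      have e1 : ent p (pair (fun ω => V ω ∩ insert e S) (pair B Y)) =
          ent p (pair (fun ω => V ω ∩ {e}) (pair B (pair Y (fun ω => V ω ∩ S)))) :=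
        ent_congr (fun a b h => by simp only [Prod.ext_iff, hk] at h ⊢; tauto)
          (fun a b h => by simp only [Prod.ext_iff, hk] at h ⊢; tauto)
      have e2 : ent p (pair (fun ω => V ω ∩ insert e S) Y) =
          ent p (pair (fun ω => V ω ∩ {e}) (pair Y (fun ω => V ω ∩ S))) :=
        ent_congr (fun a b h => by simp only [Prod.ext_iff, hk] at h ⊢; tauto)
          (fun a b h => by simp only [Prod.ext_iff, hk] at h ⊢; tauto)
      have e3 : ent p (pair (fun ω => V ω ∩ S) (pair B Y)) =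
          ent p (pair B (pair Y (fun ω => V ω ∩ S))) :=
        ent_congr (fun a b h => by simp only [Prod.ext_iff] at h ⊢; tauto)
          (fun a b h => by simp only [Prod.ext_iff] at h ⊢; tauto)
      have e4 : ent p (pair (fun ω => V ω ∩ S) Y) = ent p (pair Y (fun ω => V ω ∩ S)) :=
        ent_congr (fun a b h => by simp only [Prod.ext_iff] at h ⊢; tauto)
          (fun a b h => by simp only [Prod.ext_iff] at h ⊢; tauto)
      rw [Finset.sum_insert he, e1, e2]
      rw [e3, e4] at ih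
      linarith
  have := key univ
  simp only [Finset.inter_univ] at this
  exact this

end sel

end Crest.Agent.KK2
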